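import Vale.Agent.P074.Dual

open MeasureTheory
open scoped ENNReal NNReal RealInnerProductSpace

namespace Vale.Agent.P074

variable {d : ℕ}

theorem admissible_quarter_of
    (hB2 : ∀ {K : Set (EE d)}, IsCompact K → Convex ℝ K → (interior K).Nonempty →
      ∀ {Y : Set (EE d)}, IsCompact Y → ∀ {μ : Measure (EE d)} [IsProbabilityMeasure μ], μ Y = 1 →
      ∀ {T : EE d → EE d}, IsOTMap (unif K) μ T →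
      ∃ L : Set (EE d), (∀ᵐ x ∂(unif K), x ∈ L) ∧ L ⊆ K ∧ (∀ x ∈ L, T x ∈ Y) ∧
        ∀ (n : ℕ) (x : ℕ → EE d), (∀ i ≤ n, x i ∈ L) →
          ∑ i ∈ Finset.range n, ⟪T (x i), x (i + 1) - x i⟫ + ⟪T (x n), x 0 - x n⟫ ≤ 0)
    (hC1 : ∀ {L : Set (EE d)}, L.Nonempty → ∀ {T : EE d → EE d} {R : ℝ},
      (∀ x ∈ L, ‖T x‖ ≤ R) →
      (∀ (n : ℕ) (x : ℕ → EE d), (∀ i ≤ n, x i ∈ L) →
          ∑ i ∈ Finset.range n, ⟪T (x i), x (i + 1) - x i⟫ + ⟪T (x n), x 0 - x n⟫ ≤ 0) →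
      ∃ a : EE d → ℝ, ∀ x ∈ L, ∀ x' ∈ L, a x + ⟪T x, x' - x⟫ ≤ a x')
    (hC2 : ∀ {ρ : Measure (EE d)} {L Y : Set (EE d)}, L.Nonempty →
      (∀ᵐ x ∂ρ, x ∈ L) → ∀ {T : EE d → EE d} {r R : ℝ},
      (∀ x ∈ L, ‖x‖ ≤ r) → (∀ y ∈ Y, ‖y‖ ≤ R) → (∀ x ∈ L, T x ∈ Y) →
      ∀ {a : EE d → ℝ}, (∀ x ∈ L, ∀ x' ∈ L, a x + ⟪T x, x' - x⟫ ≤ a x') →
      ∃ φ ψ : EE d → ℝ, DualPair ρ Y T r R φ ψ)
    (hA4 : ∀ {K Y : Set (EE d)}, IsCompact K → (interior K).Nonempty →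
      IsCompact Y → ∀ {r R : ℝ}, (∀ x ∈ K, ‖x‖ ≤ r) → (∀ y ∈ Y, ‖y‖ ≤ R) →
      ∃ C : ℝ≥0, ∀ (T S : EE d → EE d) (φ ψ φ' ψ' : EE d → ℝ), Measurable T → Measurable S →
        (∀ᵐ x ∂(unif K), T x ∈ Y) → (∀ᵐ x ∂(unif K), S x ∈ Y) →
        DualPair (unif K) Y T r R φ ψ → DualPair (unif K) Y S r R φ' ψ' →
        eLpNorm (fun x => T x - S x) 2 (unif K)
          ≤ (C : ℝ≥0∞) * W2 ((unif K).map T) ((unif K).map S) ^ (1 / 4 : ℝ)) :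
    Admissible d (1 / 4) := by
  refine ⟨by norm_num, by norm_num, ?_⟩
  intro K hK hKc hKi Y hY _
  obtain ⟨r, hKr⟩ : ∃ r : ℝ, ∀ x ∈ K, ‖x‖ ≤ r := hK.isBounded.exists_norm_le
  obtain ⟨R, hYR⟩ : ∃ R : ℝ, ∀ y ∈ Y, ‖y‖ ≤ R := hY.isBounded.exists_norm_le
  obtain ⟨C, hC⟩ := hA4 hK hKi hY hKr hYR
  have hprob : IsProbabilityMeasure (unif K) := unif_isProbabilityMeasure hK hKi
  have main : ∀ (μ : Measure (EE d)), IsProbabilityMeasure μ → μ Y = 1 → ∀ T : EE d → EE d,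
      IsOTMap (unif K) μ T →
      (∀ᵐ x ∂(unif K), T x ∈ Y) ∧ ∃ φ ψ : EE d → ℝ, DualPair (unif K) Y T r R φ ψ := by
    intro μ hμ hμY T hT
    obtain ⟨L, hLae, hLK, hLY, hcyc⟩ := hB2 hK hKc hKi hY hμY hT
    have hLne : L.Nonempty := by
      obtain ⟨x, hx⟩ := hLae.exists
      exact ⟨x, hx⟩
    obtain ⟨a, ha⟩ := hC1 hLne (fun x hx => hYR _ (hLY x hx)) hcyc
    refine ⟨?_, hC2 hLne hLae (fun x hx => hKr x (hLK hx)) hYR hLY ha⟩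
    filter_upwards [hLae] with x hx
    exact hLY x hx
  refine ⟨C, ?_⟩
  intro μ ν hμ hν hμY hνY T S hT hS
  obtain ⟨hTY, φ, ψ, h1⟩ := main μ hμ hμY T hT
  obtain ⟨hSY, φ', ψ', h2⟩ := main ν hν hνY S hS
  have := hC T S φ ψ φ' ψ' hT.1 hS.1 hTY hSY h1 h2
  rwa [hT.2.1, hS.2.1] at this

end Vale.Agent.P074
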