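import Vale.Agent.P074.Potential

open MeasureTheory
open scoped ENNReal NNReal RealInnerProductSpace

namespace Vale.Agent.P074

lemma unif_isProbabilityMeasure {d : ℕ} {K : Set (EE d)} (hK : IsCompact K)
    (hint : (interior K).Nonempty) : IsProbabilityMeasure (unif K) := by
  have h0 : volume K ≠ 0 := by
    have : 0 < volume (interior K) := isOpen_interior.measure_pos volume hint
    exact (this.trans_le (measure_mono interior_subset)).ne'
  have h1 : volume K ≠ ∞ := hK.measure_lt_top.ne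
  refine ⟨?_⟩
  simp only [unif, Measure.smul_apply, Measure.restrict_apply MeasurableSet.univ, Set.univ_inter,
    smul_eq_mul]
  exact ENNReal.inv_mul_cancel h0 h1

lemma unif_apply {d : ℕ} {K B : Set (EE d)} (hB : MeasurableSet B) :
    unif K B = (volume K)⁻¹ * volume (B ∩ K) := by
  simp only [unif, Measure.smul_apply, Measure.restrict_apply hB, smul_eq_mul]

lemma unif_compl {d : ℕ} {K : Set (EE d)} (hK : MeasurableSet K) : unif K Kᶜ = 0 := by
  rw [unif_apply hK.compl]
  simp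

lemma volume_box {m : ℕ} (a b : Fin m → ℝ) :
    volume {x : EE m | ∀ i, x i ∈ Set.Icc (a i) (b i)} = ∏ i, ENNReal.ofReal (b i - a i) := by
  have h := (PiLp.volume_preserving_ofLp (Fin m)).measure_preimage
    (measurableSet_Icc (a := a) (b := b)).nullMeasurableSet
  rw [Real.volume_Icc_pi] at h
  rw [← h]
  congr 1
  ext x
  simp only [Set.mem_ofPred_eq, Set.mem_preimage, Set.mem_Icc, Pi.le_def]
  exact forall_and

def cube (n : ℕ) : Set (EE (n + 2)) := {x | ∀ i, x i ∈ Set.Icc (-1 : ℝ) 1}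

lemma cube_isClosed (n : ℕ) : IsClosed (cube n) := by
  have : cube n = ⋂ i, {x : EE (n + 2) | x i ∈ Set.Icc (-1 : ℝ) 1} := by
    ext x; simp [cube]
  rw [this]
  refine isClosed_iInter fun i => ?_
  exact isClosed_Icc.preimage (by fun_prop)

lemma cube_norm_le (n : ℕ) {x : EE (n + 2)} (hx : x ∈ cube n) : ‖x‖ ≤ (n : ℝ) + 2 := by
  have h1 : ‖x‖ ^ 2 ≤ ((n : ℝ) + 2) ^ 2 := by
    rw [EuclideanSpace.norm_sq_eq]
    have h2 : ∑ i, ‖x i‖ ^ 2 ≤ ∑ _i : Fin (n + 2), (1 : ℝ) := by
      refine Finset.sum_le_sum fun i _ => ?_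
      have := hx i
      rw [Real.norm_eq_abs, sq_abs]
      nlinarith [this.1, this.2]
    simp only [Finset.sum_const, Finset.card_univ, Fintype.card_fin, nsmul_eq_mul, mul_one] at h2
    push_cast at h2
    nlinarith
  exact (pow_le_pow_iff_left₀ (norm_nonneg x) (by positivity) two_ne_zero).mp h1

lemma cube_isCompact (n : ℕ) : IsCompact (cube n) := by
  refine Metric.isCompact_of_isClosed_isBounded (cube_isClosed n) ?_
  refine (Metric.isBounded_closedBall (x := (0 : EE (n + 2))) (r := (n : ℝ) + 2)).subset ?_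
  intro x hx
  simpa using cube_norm_le n hx

lemma cube_convex (n : ℕ) : Convex ℝ (cube n) := by
  have : cube n = ⋂ i, {x : EE (n + 2) | x i ∈ Set.Icc (-1 : ℝ) 1} := by
    ext x; simp [cube]
  rw [this]
  refine convex_iInter fun i => ?_
  exact (convex_Icc (-1 : ℝ) 1).is_linear_preimage (f := fun x : EE (n + 2) => x i)
    ⟨fun x y => rfl, fun c x => rfl⟩

lemma cube_interior_nonempty (n : ℕ) : (interior (cube n)).Nonempty := by
  refine ⟨0, ?_⟩
  have hsub : Metric.ball (0 : EE (n + 2)) 1 ⊆ cube n := by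
    intro x hx i
    have h1 : ‖x i‖ ≤ ‖x‖ := PiLp.norm_apply_le x i
    have h2 : ‖x‖ < 1 := by simpa using hx
    rw [Real.norm_eq_abs] at h1
    have := abs_le.mp (h1.trans h2.le)
    exact ⟨this.1, this.2⟩
  exact (Metric.isOpen_ball.subset_interior_iff.mpr hsub) (Metric.mem_ball_self one_pos)

lemma cube_measurableSet (n : ℕ) : MeasurableSet (cube n) := (cube_isClosed n).measurableSet

instance cube_prob (n : ℕ) : IsProbabilityMeasure (unif (cube n)) :=
  unif_isProbabilityMeasure (cube_isCompact n) (cube_interior_nonempty n)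

lemma ae_mem_cube (n : ℕ) : ∀ᵐ x ∂(unif (cube n)), x ∈ cube n := by
  have := unif_compl (cube_measurableSet n)
  exact this

def box (n : ℕ) (a0 b0 a1 b1 : ℝ) : Set (EE (n + 2)) :=
  {x | ∀ i, x i ∈ Set.Icc (if i = 0 then a0 else if i = 1 then a1 else (-1 : ℝ))
    (if i = 0 then b0 else if i = 1 then b1 else (1 : ℝ))}

lemma mem_box {n : ℕ} {a0 b0 a1 b1 : ℝ} {x : EE (n + 2)} (hx : x ∈ cube n)
    (h0 : x 0 ∈ Set.Icc a0 b0) (h1 : x 1 ∈ Set.Icc a1 b1) : x ∈ box n a0 b0 a1 b1 := by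
  intro i
  by_cases hi0 : i = 0
  · subst hi0; simpa using h0
  · by_cases hi1 : i = 1
    · subst hi1; simpa using h1
    · simpa [hi0, hi1] using hx i

lemma box_measurableSet (n : ℕ) (a0 b0 a1 b1 : ℝ) : MeasurableSet (box n a0 b0 a1 b1) := by
  have : box n a0 b0 a1 b1 = ⋂ i, {x : EE (n + 2) | x i ∈
      Set.Icc (if i = 0 then a0 else if i = 1 then a1 else (-1 : ℝ))
    (if i = 0 then b0 else if i = 1 then b1 else (1 : ℝ))} := by
    ext x; simp [box]
  rw [this]
  refine MeasurableSet.iInter fun i => ?_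
  exact (isClosed_Icc.preimage (by fun_prop)).measurableSet

lemma volume_box' (n : ℕ) (a0 b0 a1 b1 : ℝ) :
    volume (box n a0 b0 a1 b1) =
      ENNReal.ofReal (b0 - a0) * (ENNReal.ofReal (b1 - a1) * ENNReal.ofReal 2 ^ n) := by
  unfold box
  rw [volume_box, Fin.prod_univ_succ, Fin.prod_univ_succ]
  have h1 : (Fin.succ 0 : Fin (n + 2)) = 1 := rfl
  have : ∀ i : Fin n, (i.succ.succ : Fin (n + 2)) ≠ 1 := fun i => Fin.succ_succ_ne_one i
  simp [this, h1]
  norm_num

lemma cube_eq_box (n : ℕ) : cube n = box n (-1) 1 (-1) 1 := by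
  ext x
  simp [cube, box]

lemma unif_box {n : ℕ} {a0 b0 a1 b1 : ℝ} (h0 : -1 ≤ a0) (h0' : b0 ≤ 1) (h1 : -1 ≤ a1)
    (h1' : b1 ≤ 1) (h01 : a0 ≤ b0) (h11 : a1 ≤ b1) :
    unif (cube n) (box n a0 b0 a1 b1) = ENNReal.ofReal ((b0 - a0) * (b1 - a1) / 4) := by
  have hsub : box n a0 b0 a1 b1 ⊆ cube n := by
    intro x hx i
    have := hx i
    by_cases hi0 : i = 0
    · simp only [hi0, if_true] at this ⊢
      exact ⟨h0.trans this.1, this.2.trans h0'⟩
    · by_cases hi1 : i = 1
      · simp only [hi1, if_true] at this ⊢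
        simp at this
        exact ⟨h1.trans this.1, this.2.trans h1'⟩
      · simpa [hi0, hi1] using this
  rw [unif_apply (box_measurableSet n a0 b0 a1 b1), Set.inter_eq_self_of_subset_left hsub,
    cube_eq_box, volume_box', volume_box']
  have hb0 : 0 ≤ b0 - a0 := by linarith
  have hb1 : 0 ≤ b1 - a1 := by linarith
  rw [← ENNReal.ofReal_pow (by norm_num), ← ENNReal.ofReal_mul (by norm_num),
    ← ENNReal.ofReal_mul (by norm_num), ← ENNReal.ofReal_mul hb1, ← ENNReal.ofReal_mul hb0,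
    ← ENNReal.ofReal_inv_of_pos (by positivity), ← ENNReal.ofReal_mul (by positivity)]
  congr 1
  have : (2 : ℝ) ^ n ≠ 0 := by positivity
  field_simp
  ring

end Vale.Agent.P074
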