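import Vale.Agent.P074.PermBalls

open MeasureTheory Filter Topology Metric
open scoped ENNReal NNReal RealInnerProductSpace

namespace Vale.Agent.P074

variable {d : ℕ}

/-- The radii used in the blow-up argument. -/
noncomputable def rad (j : ℕ) : ℝ := 1 / ((j : ℝ) + 1)

lemma rad_pos (j : ℕ) : 0 < rad j := by unfold rad; positivity

lemma tendsto_rad : Tendsto rad atTop (𝓝[>] 0) := by
  rw [tendsto_nhdsWithin_iff]
  exact ⟨tendsto_one_div_add_atTop_nhds_zero_nat, Eventually.of_forall fun j => rad_pos j⟩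

lemma tendsto_rad' : Tendsto rad atTop (𝓝 0) := tendsto_rad.mono_right nhdsWithin_le_nhds

/-- Eventually `a * rad j < b` when `0 < b`. -/
lemma eventually_mul_rad_lt (a : ℝ) {b : ℝ} (hb : 0 < b) : ∀ᶠ j in atTop, a * rad j < b := by
  have h : Tendsto (fun j => a * rad j) atTop (𝓝 (a * 0)) := tendsto_rad'.const_mul a
  rw [mul_zero] at h
  exact h.eventually (gt_mem_nhds hb)

/-- The shifted centres. -/
noncomputable def ctr (e : EE d) {n : ℕ} (x : Fin (n + 1) → EE d) (j : ℕ) (i : Fin (n + 1)) : EE d :=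
  x i + (3 * rad j * (i : ℕ)) • e

lemma dist_ctr_le {e : EE d} (he : ‖e‖ = 1) {n : ℕ} (x : Fin (n + 1) → EE d) (j : ℕ)
    (i : Fin (n + 1)) : dist (x i) (ctr e x j i) ≤ (3 * n : ℝ) * rad j := by
  unfold ctr
  rw [dist_eq_norm, sub_add_cancel_left, norm_neg, norm_smul, he, mul_one, Real.norm_eq_abs,
    abs_of_nonneg (by have := rad_pos j; positivity)]
  have hi : ((i : ℕ) : ℝ) ≤ n := by exact_mod_cast Nat.lt_succ_iff.mp i.2
  have := rad_pos j
  nlinarith

lemma tendsto_ctr (e : EE d) {n : ℕ} (x : Fin (n + 1) → EE d) (i : Fin (n + 1)) :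
    Tendsto (fun j => ctr e x j i) atTop (𝓝 (x i)) := by
  unfold ctr
  have h : Tendsto (fun j => (3 * rad j * (i : ℕ)) • e) atTop (𝓝 (((3 * 0 * ((i : ℕ) : ℝ)) : ℝ) • e)) :=
    ((tendsto_rad'.const_mul 3).mul_const _).smul_const e
  simpa using h.const_add (x i)

lemma eventually_closedBall_subset {e : EE d} (he : ‖e‖ = 1) {K : Set (EE d)} {n : ℕ}
    (x : Fin (n + 1) → EE d) (hx : ∀ i, x i ∈ interior K) :
    ∀ᶠ j in atTop, ∀ i, closedBall (ctr e x j i) (rad j) ⊆ K := by
  rw [eventually_all]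
  intro i
  obtain ⟨r, hr, hball⟩ := Metric.isOpen_iff.mp isOpen_interior (x i) (hx i)
  filter_upwards [eventually_mul_rad_lt (3 * n + 1 : ℝ) hr] with j hj
  intro y hy
  apply interior_subset
  apply hball
  rw [mem_ball]
  have h1 : dist y (ctr e x j i) ≤ rad j := hy
  have h2 := dist_ctr_le he x j i
  have h3 : dist y (x i) ≤ dist y (ctr e x j i) + dist (ctr e x j i) (x i) := dist_triangle _ _ _
  rw [dist_comm (ctr e x j i)] at h3
  nlinarith

lemma eventually_disjoint {e : EE d} (he : ‖e‖ = 1) {n : ℕ} (x : Fin (n + 1) → EE d) :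
    ∀ᶠ j in atTop, Pairwise (fun i i' => Disjoint (closedBall (ctr e x j i) (rad j))
      (closedBall (ctr e x j i') (rad j))) := by
  have key : ∀ i i' : Fin (n + 1), i ≠ i' → ∀ᶠ j in atTop,
      Disjoint (closedBall (ctr e x j i) (rad j)) (closedBall (ctr e x j i') (rad j)) := by
    intro i i' hii
    by_cases hxx : x i = x i'
    · refine Eventually.of_forall fun j => ?_
      apply closedBall_disjoint_closedBall
      have hr := rad_pos j
      have hd : ctr e x j i - ctr e x j i' = (3 * rad j * (((i : ℕ) : ℝ) - ((i' : ℕ) : ℝ))) • e := by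
        unfold ctr
        rw [hxx, add_sub_add_left_eq_sub, ← sub_smul]
        congr 1
        ring
      rw [dist_eq_norm, hd, norm_smul, he, mul_one, Real.norm_eq_abs, abs_mul,
        abs_of_nonneg (by positivity)]
      have hne : (1 : ℝ) ≤ |((i : ℕ) : ℝ) - ((i' : ℕ) : ℝ)| := by
        have h1 : ((i : ℕ) : ℤ) - ((i' : ℕ) : ℤ) ≠ 0 := by
          intro h
          apply hii
          apply Fin.ext
          omega
        have h2 : (1 : ℤ) ≤ |((i : ℕ) : ℤ) - ((i' : ℕ) : ℤ)| := Int.one_le_abs h1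
        exact_mod_cast h2
      nlinarith
    · have hpos : 0 < dist (x i) (x i') := dist_pos.mpr hxx
      filter_upwards [eventually_mul_rad_lt (6 * n + 2 : ℝ) hpos] with j hj
      apply closedBall_disjoint_closedBall
      have h1 := dist_ctr_le he x j i
      have h2 := dist_ctr_le he x j i'
      have h3 : dist (x i) (x i') ≤ dist (x i) (ctr e x j i) + dist (ctr e x j i) (ctr e x j i')
          + dist (ctr e x j i') (x i') := dist_triangle4 _ _ _ _
      rw [dist_comm (ctr e x j i') (x i')] at h3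
      nlinarith
  have h2 : ∀ᶠ j in atTop, ∀ i i' : Fin (n + 1), i ≠ i' →
      Disjoint (closedBall (ctr e x j i) (rad j)) (closedBall (ctr e x j i') (rad j)) := by
    rw [eventually_all]
    intro i
    rw [eventually_all]
    intro i'
    by_cases hii : i = i'
    · exact Eventually.of_forall fun j h => absurd hii h
    · filter_upwards [key i i' hii] with j hj _ using hj
  filter_upwards [h2] with j hj i i' hii using hj i i' hii

/-- Lebesgue points for balls that need not be centred at the point. -/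
def LebPt (f : EE d → EE d) (x : EE d) : Prop :=
  ∀ (N : ℕ) (w : ℕ → EE d) (δ : ℕ → ℝ), Tendsto δ atTop (𝓝[>] 0) →
    (∀ᶠ j in atTop, x ∈ closedBall (w j) (N * δ j)) →
    Tendsto (fun j => ⨍ y in closedBall (w j) (δ j), f y) atTop (𝓝 (f x))

lemma ae_lebPt {f : EE d → EE d} (hf : LocallyIntegrable f volume) : ∀ᵐ x, LebPt f x := by
  unfold LebPt
  rw [ae_all_iff]
  intro N
  filter_upwards [IsUnifLocDoublingMeasure.ae_tendsto_average volume hf (N : ℝ)] with x hx w δ h1 h2
  exact hx w δ h1 h2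

lemma cyc_of_lebPt {e : EE d} (he : ‖e‖ = 1) {K : Set (EE d)} (hK : IsCompact K)
    (hKi : (interior K).Nonempty)
    {μ : Measure (EE d)} {T : EE d → EE d} (hT : IsOTMap (unif K) μ T)
    {R : ℝ} (hTR : ∀ᵐ x ∂(unif K), ‖T x‖ ≤ R) {f : EE d → EE d}
    (hfT : ∀ᵐ y ∂(volume.restrict K), T y = f y)
    {n : ℕ} (x : Fin (n + 1) → EE d) (hxi : ∀ i, x i ∈ interior K) (hxL : ∀ i, LebPt f (x i))
    (σ : Equiv.Perm (Fin (n + 1))) :
    0 ≤ ∑ i, ⟪x i - x (σ i), f (x i)⟫ := by
  have hev : ∀ᶠ j in atTop, 0 ≤ ∑ i, ⟪ctr e x j i - ctr e x j (σ i),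
      ⨍ y in closedBall (ctr e x j i) (rad j), f y⟫ := by
    filter_upwards [eventually_closedBall_subset he x hxi, eventually_disjoint he x] with j h1 h2
    have hB := perm_balls_inequality hK hKi hT hTR σ (ctr e x j) (rad j) h1 h2
    set v : ℝ := volume.real (closedBall (0 : EE d) (rad j)) with hv
    have hvpos : 0 < v := by
      rw [hv, Measure.real]
      exact ENNReal.toReal_pos (measure_closedBall_pos volume _ (rad_pos j)).ne'
        measure_closedBall_lt_top.ne
    have hint : ∀ i, ∫ y in closedBall (ctr e x j i) (rad j), T y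
        = v • ⨍ y in closedBall (ctr e x j i) (rad j), f y := by
      intro i
      have hvi : volume.real (closedBall (ctr e x j i) (rad j)) = v := by
        rw [hv, Measure.real, Measure.real, Measure.addHaar_closedBall_center]
      rw [setAverage_eq, hvi, smul_smul, mul_inv_cancel₀ hvpos.ne', one_smul]
      apply integral_congr_ae
      exact ae_restrict_of_ae_restrict_of_subset (h1 i) hfT
    simp only [hint, inner_smul_right] at hB
    rw [← Finset.mul_sum] at hB
    exact (mul_nonneg_iff_of_pos_left hvpos).mp hB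
  have hlim : Tendsto (fun j => ∑ i, ⟪ctr e x j i - ctr e x j (σ i),
      ⨍ y in closedBall (ctr e x j i) (rad j), f y⟫) atTop
      (𝓝 (∑ i, ⟪x i - x (σ i), f (x i)⟫)) := by
    refine tendsto_finsetSum _ fun i _ => ?_
    refine Tendsto.inner ((tendsto_ctr e x i).sub (tendsto_ctr e x (σ i))) ?_
    refine hxL i (3 * n) (fun j => ctr e x j i) rad tendsto_rad (Eventually.of_forall fun j => ?_)
    rw [mem_closedBall]
    have := dist_ctr_le he x j i
    push_cast
    exact this
  exact ge_of_tendsto hlim hev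

lemma ae_unif_eq {K : Set (EE d)} (hK : IsCompact K) :
    ae (unif K) = ae (volume.restrict K) := by
  unfold unif
  have h : (volume K)⁻¹ ≠ 0 := ENNReal.inv_ne_zero.mpr hK.measure_lt_top.ne
  exact Measure.ae_ennreal_smul_measure_eq h _

theorem exists_cyclically_monotone (hd : 0 < d) {K : Set (EE d)} (hK : IsCompact K) (hKc : Convex ℝ K)
    (hKi : (interior K).Nonempty) {Y : Set (EE d)} (hY : IsCompact Y)
    {μ : Measure (EE d)} [IsProbabilityMeasure μ] (hμY : μ Y = 1)
    {T : EE d → EE d} (hT : IsOTMap (unif K) μ T) :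
    ∃ L : Set (EE d), (∀ᵐ x ∂(unif K), x ∈ L) ∧ L ⊆ K ∧ (∀ x ∈ L, T x ∈ Y) ∧
      ∀ (n : ℕ) (x : ℕ → EE d), (∀ i ≤ n, x i ∈ L) →
        ∑ i ∈ Finset.range n, ⟪T (x i), x (i + 1) - x i⟫ + ⟪T (x n), x 0 - x n⟫ ≤ 0 := by
  have hTm : Measurable T := hT.1
  have hTmap : (unif K).map T = μ := hT.2.1
  have hTY : ∀ᵐ x ∂(unif K), T x ∈ Y := by
    have h1 : μ Yᶜ = 0 := (prob_compl_eq_zero_iff hY.measurableSet).mpr hμY
    rw [← hTmap, Measure.map_apply hTm hY.measurableSet.compl] at h1
    exact h1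
  obtain ⟨R, hR⟩ : ∃ R, ∀ y ∈ Y, ‖y‖ ≤ R := hY.isBounded.exists_norm_le
  have hTR : ∀ᵐ x ∂(unif K), ‖T x‖ ≤ R := hTY.mono fun x hx => hR _ hx
  set A : Set (EE d) := K ∩ T ⁻¹' Y with hAdef
  have hA : MeasurableSet A := hK.measurableSet.inter (hTm hY.measurableSet)
  set f : EE d → EE d := A.indicator T with hfdef
  have hfA : ∀ x ∈ A, f x = T x := fun x hx => Set.indicator_of_mem hx T
  have hf : Integrable f volume := by
    rw [hfdef, integrable_indicator_iff hA]
    refine Measure.integrableOn_of_bounded (M := R) ?_ hTm.aestronglyMeasurable ?_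
    · exact ((measure_mono Set.inter_subset_left).trans_lt hK.measure_lt_top).ne
    · filter_upwards [ae_restrict_mem hA] with x hx
      exact hR _ hx.2
  have hfT : ∀ᵐ y ∂(volume.restrict K), T y = f y := by
    have h1 : ∀ᵐ y ∂(volume.restrict K), T y ∈ Y := by
      rw [← ae_unif_eq hK]; exact hTY
    filter_upwards [h1, ae_restrict_mem hK.measurableSet] with y hy1 hy2
    exact (hfA y ⟨hy2, hy1⟩).symm
  refine ⟨{x | x ∈ interior K ∧ T x ∈ Y ∧ LebPt f x}, ?_, fun x hx => interior_subset hx.1,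
    fun x hx => hx.2.1, ?_⟩
  · have h1 : ∀ᵐ x ∂(volume.restrict K), x ∈ interior K := by
      have hfr : ∀ᵐ x ∂(volume.restrict K), x ∉ frontier K :=
        ae_restrict_of_ae (measure_eq_zero_iff_ae_notMem.mp (hKc.addHaar_frontier volume))
      filter_upwards [hfr, ae_restrict_mem hK.measurableSet] with x hx1 hx2
      by_contra hcon
      exact hx1 ⟨subset_closure hx2, hcon⟩
    have h2 : ∀ᵐ x ∂(volume.restrict K), LebPt f x := ae_restrict_of_ae (ae_lebPt hf.locallyIntegrable)
    have h3 : ∀ᵐ x ∂(volume.restrict K), T x ∈ Y := by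
      rw [← ae_unif_eq hK]; exact hTY
    have : ∀ᵐ x ∂(volume.restrict K), x ∈ {x | x ∈ interior K ∧ T x ∈ Y ∧ LebPt f x} := by
      filter_upwards [h1, h2, h3] with x a b c using ⟨a, c, b⟩
    rw [ae_unif_eq hK]
    exact this
  · intro n x hx
    have he : ‖(EuclideanSpace.single (⟨0, hd⟩ : Fin d) (1 : ℝ) : EE d)‖ = 1 := by
      rw [PiLp.norm_single]; simp
    have hmem : ∀ i : Fin (n + 1), x i ∈ {x | x ∈ interior K ∧ T x ∈ Y ∧ LebPt f x} :=
      fun i => hx i (Nat.lt_succ_iff.mp i.2)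
    have key := cyc_of_lebPt he hK hKi hT hTR hfT (fun i : Fin (n + 1) => x i)
      (fun i => (hmem i).1) (fun i => (hmem i).2.2) (finRotate (n + 1))
    have hfx : ∀ i : Fin (n + 1), f (x i) = T (x i) :=
      fun i => hfA _ ⟨interior_subset (hmem i).1, (hmem i).2.1⟩
    simp only [hfx] at key
    rw [Fin.sum_univ_castSucc] at key
    have e1 : ∀ a b c : EE d, ⟪T a, b - c⟫ = -⟪c - b, T a⟫ := by
      intro a b c
      rw [real_inner_comm, ← inner_neg_left, neg_sub]
    have e2 : ∀ i : Fin n, ((finRotate (n + 1) i.castSucc : Fin (n + 1)) : ℕ) = (i : ℕ) + 1 := by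
      intro i
      rw [coe_finRotate_of_ne_last (Fin.castSucc_lt_last i).ne]
      simp
    simp only [e2, finRotate_last, Fin.val_castSucc, Fin.val_last, Fin.val_zero] at key
    rw [Finset.sum_range]
    simp only [e1, Finset.sum_neg_distrib]
    linarith

end Vale.Agent.P074
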