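import Mathlib

open MeasureTheory
open scoped ENNReal NNReal

namespace Vale.Agent.P074

/-- The uniform probability measure on `K`: normalized Lebesgue measure restricted to `K`. -/
noncomputable def unif {d : ℕ} (K : Set (EuclideanSpace ℝ (Fin d))) :
    Measure (EuclideanSpace ℝ (Fin d)) :=
  (volume K)⁻¹ • (volume.restrict K)

/-- The quadratic transport cost of a map `T` for the source measure `ρ`. -/
noncomputable def cost {d : ℕ} (ρ : Measure (EuclideanSpace ℝ (Fin d)))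
    (T : EuclideanSpace ℝ (Fin d) → EuclideanSpace ℝ (Fin d)) : ℝ≥0∞ :=
  ∫⁻ x, ENNReal.ofReal (‖x - T x‖ ^ 2) ∂ρ

/-- `T` is a quadratic optimal transport map from `ρ` to `μ`: a Borel map pushing `ρ` to `μ`
which minimizes the quadratic cost among all Borel maps pushing `ρ` to `μ`. -/
def IsOTMap {d : ℕ} (ρ μ : Measure (EuclideanSpace ℝ (Fin d)))
    (T : EuclideanSpace ℝ (Fin d) → EuclideanSpace ℝ (Fin d)) : Prop :=
  Measurable T ∧ ρ.map T = μ ∧
    ∀ S : EuclideanSpace ℝ (Fin d) → EuclideanSpace ℝ (Fin d),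
      Measurable S → ρ.map S = μ → cost ρ T ≤ cost ρ S

/-- `π` is a coupling of `μ` and `ν`. -/
def IsCoupling {d : ℕ} (μ ν : Measure (EuclideanSpace ℝ (Fin d)))
    (π : Measure (EuclideanSpace ℝ (Fin d) × EuclideanSpace ℝ (Fin d))) : Prop :=
  π.map Prod.fst = μ ∧ π.map Prod.snd = ν

/-- The quadratic Wasserstein distance. -/
noncomputable def W2 {d : ℕ} (μ ν : Measure (EuclideanSpace ℝ (Fin d))) : ℝ≥0∞ :=
  ⨅ π : Measure (EuclideanSpace ℝ (Fin d) × EuclideanSpace ℝ (Fin d)),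
    ⨅ _ : IsCoupling μ ν π, (∫⁻ p, ENNReal.ofReal (‖p.1 - p.2‖ ^ 2) ∂π) ^ (1 / 2 : ℝ)

/-- The exponent `α` is admissible in dimension `d`. -/
def Admissible (d : ℕ) (α : ℝ) : Prop :=
  0 < α ∧ α ≤ 1 ∧
  ∀ K : Set (EuclideanSpace ℝ (Fin d)), IsCompact K → Convex ℝ K → (interior K).Nonempty →
  ∀ Y : Set (EuclideanSpace ℝ (Fin d)), IsCompact Y → Y.Nonempty →
  ∃ C : ℝ≥0, ∀ μ ν : Measure (EuclideanSpace ℝ (Fin d)),
    IsProbabilityMeasure μ → IsProbabilityMeasure ν → μ Y = 1 → ν Y = 1 →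
    ∀ T S : EuclideanSpace ℝ (Fin d) → EuclideanSpace ℝ (Fin d),
      IsOTMap (unif K) μ T → IsOTMap (unif K) ν S →
      eLpNorm (fun x => T x - S x) 2 (unif K) ≤ (C : ℝ≥0∞) * W2 μ ν ^ α

end Vale.Agent.P074
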