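import Vale.Agent.P074.Cube

open MeasureTheory
open scoped ENNReal NNReal RealInnerProductSpace

namespace Vale.Agent.P074

variable {d : ℕ}

/-- Kantorovich-type dual pair for the map `T` (source `ρ`, targets in `Y`). -/
structure DualPair (ρ : Measure (EE d)) (Y : Set (EE d)) (T : EE d → EE d) (r R : ℝ)
    (φ ψ : EE d → ℝ) : Prop where
  ineq : ∀ z, ∀ y ∈ Y, ⟪z, y⟫ ≤ φ z + ψ y
  eq : ∀ᵐ x ∂ρ, ⟪x, T x⟫ = φ x + ψ (T x)
  lipφ : ∀ x z, |φ x - φ z| ≤ R * ‖x - z‖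
  lipψ : ∀ y z, |ψ y - ψ z| ≤ r * ‖y - z‖
  conv : ∀ x v, 2 * φ x ≤ φ (x + v) + φ (x - v)

end Vale.Agent.P074
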