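import Vale.Agent.P074.Cube

open MeasureTheory
open scoped ENNReal NNReal RealInnerProductSpace

namespace Vale.Agent.P074

noncomputable def e0 (n : ℕ) : EE (n + 2) := EuclideanSpace.single 0 1
noncomputable def e1 (n : ℕ) : EE (n + 2) := EuclideanSpace.single 1 1

noncomputable def Tmap (n : ℕ) (w t : ℝ) (x : EE (n + 2)) : EE (n + 2) :=
  if |x 0| ≤ w - t * x 1 then (-t) • e1 n else if 0 < x 0 then e0 n else -e0 n

noncomputable def phi (n : ℕ) (w t : ℝ) (x : EE (n + 2)) : ℝ := max |x 0| (w - t * x 1)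

noncomputable def psi (n : ℕ) (w : ℝ) (y : EE (n + 2)) : ℝ := w * (|y 0| - 1)

def atoms (n : ℕ) (t : ℝ) : Set (EE (n + 2)) := {e0 n, -e0 n, (-t) • e1 n}

@[simp] lemma e0_zero (n : ℕ) : (e0 n) 0 = 1 := by simp [e0]
@[simp] lemma e1_zero (n : ℕ) : (e1 n) 0 = 0 := by simp [e1]
@[simp] lemma e1_one (n : ℕ) : (e1 n) 1 = 1 := by simp [e1]
@[simp] lemma inner_e0 (n : ℕ) (x : EE (n + 2)) : ⟪x, e0 n⟫ = x 0 := by
  simp [e0, EuclideanSpace.inner_single_right]
@[simp] lemma inner_e1 (n : ℕ) (x : EE (n + 2)) : ⟪x, e1 n⟫ = x 1 := by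
  simp [e1, EuclideanSpace.inner_single_right]
@[simp] lemma norm_e0 (n : ℕ) : ‖e0 n‖ = 1 := by simp [e0]
@[simp] lemma norm_e1 (n : ℕ) : ‖e1 n‖ = 1 := by simp [e1]

lemma Tmap_measurable (n : ℕ) (w t : ℝ) : Measurable (Tmap n w t) := by
  unfold Tmap
  refine Measurable.ite ?_ measurable_const (Measurable.ite ?_ measurable_const measurable_const)
  · exact measurableSet_le (by fun_prop) (by fun_prop)
  · exact measurableSet_lt (by fun_prop) (by fun_prop)

lemma Tmap_mem (n : ℕ) (w t : ℝ) (x : EE (n + 2)) : Tmap n w t x ∈ atoms n t := by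
  unfold Tmap atoms
  split_ifs <;> simp

lemma atoms_measurableSet (n : ℕ) (t : ℝ) : MeasurableSet (atoms n t) := by
  unfold atoms
  exact (Set.toFinite _).measurableSet

lemma phi_measurable (n : ℕ) (w t : ℝ) : Measurable (phi n w t) := by
  unfold phi
  fun_prop

lemma psi_measurable (n : ℕ) (w : ℝ) : Measurable (psi n w) := by
  unfold psi
  fun_prop

lemma Tmap_eq (n : ℕ) (w t : ℝ) (x : EE (n + 2)) :
    ⟪x, Tmap n w t x⟫ = phi n w t x + psi n w (Tmap n w t x) := by
  unfold Tmap phi psi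
  split_ifs with h1 h2
  · rw [max_eq_right h1]
    simp [inner_smul_right]
    ring
  · rw [max_eq_left (not_le.mp h1).le]
    simp [abs_of_pos h2]
  · rw [max_eq_left (not_le.mp h1).le]
    simp [abs_of_nonpos (not_lt.mp h2)]

lemma atoms_ineq (n : ℕ) (w t : ℝ) (x : EE (n + 2)) (y : EE (n + 2)) (hy : y ∈ atoms n t) :
    ⟪x, y⟫ ≤ phi n w t x + psi n w y := by
  unfold atoms at hy
  unfold phi psi
  rcases hy with rfl | rfl | rfl
  · simp
    exact Or.inl (le_abs_self _)
  · simp
    exact Or.inl (neg_le_abs _)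
  · simp [inner_smul_right]

lemma atoms_norm (n : ℕ) (t : ℝ) (y : EE (n + 2)) (hy : y ∈ atoms n t) : ‖y‖ ≤ 1 + |t| := by
  unfold atoms at hy
  rcases hy with rfl | rfl | rfl
  · simp
  · simp
  · simp [norm_smul]

lemma atoms_psi (n : ℕ) (w t : ℝ) (y : EE (n + 2)) (hy : y ∈ atoms n t) : |psi n w y| ≤ |w| := by
  unfold atoms at hy
  unfold psi
  rcases hy with rfl | rfl | rfl
  · simp
  · simp
  · simp

lemma phi_bound (n : ℕ) (w t : ℝ) : ∀ᵐ x ∂(unif (cube n)), |phi n w t x| ≤ 1 + |w| + |t| := by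
  filter_upwards [ae_mem_cube n] with x hx
  unfold phi
  have h0 := hx 0
  have h1 := hx 1
  have h2 : |x 0| ≤ 1 := abs_le.mpr ⟨h0.1, h0.2⟩
  have h3 : |x 1| ≤ 1 := abs_le.mpr ⟨h1.1, h1.2⟩
  have h4 : |w - t * x 1| ≤ |w| + |t| := by
    calc |w - t * x 1| ≤ |w| + |t * x 1| := abs_sub _ _
      _ = |w| + |t| * |x 1| := by rw [abs_mul]
      _ ≤ |w| + |t| := by nlinarith [abs_nonneg t]
  rw [abs_le]
  constructor
  · have : 0 ≤ max |x 0| (w - t * x 1) := le_max_of_le_left (abs_nonneg _)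
    linarith [abs_nonneg w, abs_nonneg t]
  · refine max_le (by linarith [abs_nonneg w, abs_nonneg t]) ?_
    linarith [le_abs_self (w - t * x 1)]

lemma norm_bound (n : ℕ) : ∀ᵐ x ∂(unif (cube n)), ‖x‖ ≤ (n : ℝ) + 2 := by
  filter_upwards [ae_mem_cube n] with x hx using cube_norm_le n hx

lemma Tmap_isOTMap (n : ℕ) (w t : ℝ) :
    IsOTMap (unif (cube n)) ((unif (cube n)).map (Tmap n w t)) (Tmap n w t) :=
  isOTMap_of_potential (Tmap_measurable n w t) (atoms_measurableSet n t) (Tmap_mem n w t)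
    (phi_measurable n w t) (psi_measurable n w) (norm_bound n) (phi_bound n w t)
    (atoms_norm n t) (atoms_psi n w t) (Tmap_eq n w t) (atoms_ineq n w t)

lemma contact (n : ℕ) (w t : ℝ) {S : EE (n + 2) → EE (n + 2)}
    (hS : IsOTMap (unif (cube n)) ((unif (cube n)).map (Tmap n w t)) S) :
    ∀ᵐ x ∂(unif (cube n)), S x ∈ atoms n t ∧ ⟪x, S x⟫ = phi n w t x + psi n w (S x) :=
  ae_contact_of_isOTMap (Tmap_measurable n w t) (atoms_measurableSet n t) (Tmap_mem n w t)
    (phi_measurable n w t) (psi_measurable n w) (norm_bound n) (phi_bound n w t)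
    (atoms_norm n t) (atoms_psi n w t) (Tmap_eq n w t) (atoms_ineq n w t) hS

noncomputable def Rf (n : ℕ) : EE (n + 2) ≃ₗᵢ[ℝ] EE (n + 2) :=
  LinearIsometryEquiv.piLpCongrRight 2
    (fun i => if i = 1 then LinearIsometryEquiv.neg ℝ else LinearIsometryEquiv.refl ℝ ℝ)

lemma Rf_apply (n : ℕ) (x : EE (n + 2)) (i : Fin (n + 2)) :
    (Rf n x) i = if i = 1 then -x i else x i := by
  unfold Rf
  rw [LinearIsometryEquiv.piLpCongrRight_apply]
  by_cases h : i = 1 <;> simp [h]

lemma Rf_preimage_cube (n : ℕ) : (Rf n) ⁻¹' cube n = cube n := by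
  ext x
  simp only [Set.mem_preimage, cube, Set.mem_ofPred_eq, Rf_apply]
  refine forall_congr' fun i => ?_
  by_cases h : i = 1
  · simp only [h, if_true, Set.mem_Icc]
    constructor <;> rintro ⟨h1, h2⟩ <;> constructor <;> linarith
  · simp [h]

lemma Rf_map (n : ℕ) : (unif (cube n)).map (Rf n) = unif (cube n) := by
  have h1 : MeasurePreserving (Rf n) volume volume := (Rf n).measurePreserving
  have h2 := (h1.restrict_preimage (cube_measurableSet n)).map_eq
  rw [Rf_preimage_cube] at h2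
  unfold unif
  rw [Measure.map_smul, h2]

lemma Tmap_Rf (n : ℕ) (w t : ℝ) (x : EE (n + 2)) :
    ‖Tmap n w t x - Tmap n w (-t) (Rf n x)‖ = if |x 0| ≤ w - t * x 1 then 2 * |t| else 0 := by
  unfold Tmap
  have h0 : (Rf n x) 0 = x 0 := by rw [Rf_apply]; simp
  have h1 : (Rf n x) 1 = -x 1 := by rw [Rf_apply]; simp
  rw [h0, h1]
  have h2 : w - -t * -x 1 = w - t * x 1 := by ring
  rw [h2]
  split_ifs with h3 h4
  · have : -t • e1 n - - -t • e1 n = (-(2 * t)) • e1 n := by
      rw [neg_neg, ← sub_smul]; congr 1; ring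
    rw [this, norm_smul]
    simp
  · simp
  · simp

lemma coupling (n : ℕ) (w t : ℝ) :
    IsCoupling ((unif (cube n)).map (Tmap n w t)) ((unif (cube n)).map (Tmap n w (-t)))
      ((unif (cube n)).map (fun x => (Tmap n w t x, Tmap n w (-t) (Rf n x)))) := by
  have hm1 := Tmap_measurable n w t
  have hm2 := Tmap_measurable n w (-t)
  have hR : Measurable (Rf n) := (Rf n).continuous.measurable
  have hm : Measurable (fun x => (Tmap n w t x, Tmap n w (-t) (Rf n x))) :=
    hm1.prodMk (hm2.comp hR)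
  constructor
  · rw [Measure.map_map measurable_fst hm]
    rfl
  · rw [Measure.map_map measurable_snd hm]
    have : (Prod.snd ∘ fun x => (Tmap n w t x, Tmap n w (-t) (Rf n x)))
        = Tmap n w (-t) ∘ (Rf n) := rfl
    rw [this, ← Measure.map_map hm2 hR, Rf_map]

lemma W2_le (n : ℕ) {w : ℝ} (hw : 0 < w) (hw2 : w ≤ 1 / 2) :
    W2 ((unif (cube n)).map (Tmap n w w)) ((unif (cube n)).map (Tmap n w (-w)))
      ≤ ENNReal.ofReal (8 * w ^ 3) ^ (1 / 2 : ℝ) := by
  unfold W2
  refine iInf₂_le_of_le _ (coupling n w w) ?_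
  refine ENNReal.rpow_le_rpow ?_ (by norm_num)
  have hm1 := Tmap_measurable n w w
  have hm2 := Tmap_measurable n w (-w)
  have hR : Measurable (Rf n) := (Rf n).continuous.measurable
  have hm : Measurable (fun x => (Tmap n w w x, Tmap n w (-w) (Rf n x))) :=
    hm1.prodMk (hm2.comp hR)
  rw [lintegral_map (by fun_prop) hm]
  have hB := box_measurableSet n (-(2 * w)) (2 * w) (-1) 1
  calc ∫⁻ x, ENNReal.ofReal (‖Tmap n w w x - Tmap n w (-w) (Rf n x)‖ ^ 2) ∂(unif (cube n))
      ≤ ∫⁻ x, (box n (-(2 * w)) (2 * w) (-1) 1).indicator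
          (fun _ => ENNReal.ofReal (4 * w ^ 2)) x ∂(unif (cube n)) := by
        refine lintegral_mono_ae ?_
        filter_upwards [ae_mem_cube n] with x hx
        rw [Tmap_Rf]
        split_ifs with h
        · have hmem : x ∈ box n (-(2 * w)) (2 * w) (-1) 1 := by
            refine mem_box hx ?_ (hx 1)
            have h1 := hx 1
            have : |x 0| ≤ 2 * w := by nlinarith [h1.1, h1.2]
            exact abs_le.mp this
          rw [Set.indicator_of_mem hmem]
          refine ENNReal.ofReal_le_ofReal ?_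
          rw [abs_of_pos hw]
          nlinarith
        · simp
    _ = ENNReal.ofReal (4 * w ^ 2) * unif (cube n) (box n (-(2 * w)) (2 * w) (-1) 1) :=
        lintegral_indicator_const hB _
    _ = ENNReal.ofReal (8 * w ^ 3) := by
        rw [unif_box (by linarith) (by linarith) le_rfl le_rfl (by linarith) (by norm_num),
          ← ENNReal.ofReal_mul (by positivity)]
        congr 1
        ring

lemma L2_ge (n : ℕ) {w : ℝ} (hw : 0 < w) (hw2 : w ≤ 1 / 2) {T S : EE (n + 2) → EE (n + 2)}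
    (hT : IsOTMap (unif (cube n)) ((unif (cube n)).map (Tmap n w w)) T)
    (hS : IsOTMap (unif (cube n)) ((unif (cube n)).map (Tmap n w (-w))) S) :
    ENNReal.ofReal (w / 32) ^ (1 / 2 : ℝ) ≤ eLpNorm (fun x => T x - S x) 2 (unif (cube n)) := by
  rw [eLpNorm_eq_lintegral_rpow_enorm_toReal (by norm_num) (by norm_num)]
  simp only [ENNReal.toReal_ofNat]
  refine ENNReal.rpow_le_rpow ?_ (by norm_num)
  have hB := box_measurableSet n (3 * w / 4) w (1 / 2) 1
  calc ENNReal.ofReal (w / 32) = 1 * unif (cube n) (box n (3 * w / 4) w (1 / 2) 1) := by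
        rw [unif_box (by linarith) (by linarith) (by norm_num) le_rfl (by linarith) (by norm_num),
          one_mul]
        congr 1
        ring
    _ = ∫⁻ x, (box n (3 * w / 4) w (1 / 2) 1).indicator (fun _ => (1 : ℝ≥0∞)) x
          ∂(unif (cube n)) := (lintegral_indicator_const hB _).symm
    _ ≤ ∫⁻ x, ‖T x - S x‖ₑ ^ (2 : ℝ) ∂(unif (cube n)) := by
        refine lintegral_mono_ae ?_
        filter_upwards [contact n w w hT, contact n w (-w) hS] with x hxT hxS
        by_cases hx : x ∈ box n (3 * w / 4) w (1 / 2) 1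
        · rw [Set.indicator_of_mem hx]
          have h0 : x 0 ∈ Set.Icc (3 * w / 4) w := by simpa using hx 0
          have h1 : x 1 ∈ Set.Icc (1 / 2 : ℝ) 1 := by simpa using hx 1
          have hx0 : |x 0| = x 0 := abs_of_nonneg (by linarith [h0.1])
          have hTx : T x = e0 n := by
            obtain ⟨hmem, heq⟩ := hxT
            have hphi : phi n w w x = x 0 := by
              unfold phi
              rw [hx0]
              exact max_eq_left (by nlinarith [h0.1, h1.1])
            rw [hphi] at heq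
            unfold atoms at hmem
            rcases hmem with h | h | h
            · exact h
            · exfalso
              rw [h] at heq
              simp [psi] at heq
              linarith [h0.1]
            · exfalso
              rw [h] at heq
              simp [psi, inner_smul_right] at heq
              nlinarith [h0.1, h1.1]
          have hSx : S x = (- -w) • e1 n := by
            obtain ⟨hmem, heq⟩ := hxS
            have hphi : phi n w (-w) x = w + w * x 1 := by
              unfold phi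
              rw [hx0]
              rw [max_eq_right (by nlinarith [h0.2, h1.1])]
              ring
            rw [hphi] at heq
            unfold atoms at hmem
            rcases hmem with h | h | h
            · exfalso
              rw [h] at heq
              simp [psi] at heq
              nlinarith [h0.2, h1.1]
            · exfalso
              rw [h] at heq
              simp [psi] at heq
              nlinarith [h0.1, h1.1]
            · exact h
          have hnorm : 1 ≤ ‖T x - S x‖ := by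
            have := PiLp.norm_apply_le (T x - S x) 0
            rw [hTx, hSx] at this ⊢
            simpa using this
          have : (1 : ℝ≥0∞) ≤ ‖T x - S x‖ₑ := by
            rw [← ofReal_norm]
            exact ENNReal.one_le_ofReal.mpr hnorm
          exact ENNReal.one_le_rpow this (by norm_num)
        · rw [Set.indicator_of_notMem hx]
          exact zero_le

lemma real_choice (C α : ℝ) (hα : 1 / 3 < α) :
    ∃ w : ℝ, 0 < w ∧ w ≤ 1 / 2 ∧ C * ((8 * w ^ 3) ^ (1 / 2 : ℝ)) ^ α < (w / 32) ^ (1 / 2 : ℝ) := by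
  set β : ℝ := (3 * α - 1) / 2 with hβ
  have hβ0 : 0 < β := by rw [hβ]; linarith
  set C' : ℝ := C * 8 ^ (α / 2) * 32 ^ (1 / 2 : ℝ) with hC'
  have hcont : ContinuousAt (fun w : ℝ => C' * w ^ β) 0 :=
    continuousAt_const.mul (Real.continuousAt_rpow_const 0 β (Or.inr hβ0.le))
  have hlim : Filter.Tendsto (fun w : ℝ => C' * w ^ β) (nhds 0) (nhds 0) := by
    have := hcont.tendsto
    simpa [Real.zero_rpow hβ0.ne'] using this
  have hev : ∀ᶠ w in nhds (0 : ℝ), C' * w ^ β < 1 := hlim.eventually (gt_mem_nhds one_pos)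
  obtain ⟨δ, hδ, hball⟩ := Metric.eventually_nhds_iff.mp hev
  refine ⟨min (δ / 2) (1 / 2), by positivity, min_le_right _ _, ?_⟩
  set w : ℝ := min (δ / 2) (1 / 2) with hw
  have hw0 : 0 < w := by rw [hw]; positivity
  have hwδ : dist w 0 < δ := by
    rw [Real.dist_eq, sub_zero, abs_of_pos hw0]
    exact (min_le_left _ _).trans_lt (by linarith)
  have h1 := hball hwδ
  have e1 : ((8 * w ^ 3) ^ (1 / 2 : ℝ)) ^ α = 8 ^ (α / 2) * (w ^ (1 / 2 : ℝ) * w ^ β) := by
    rw [← Real.rpow_mul (by positivity), Real.mul_rpow (by norm_num) (by positivity),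
      ← Real.rpow_natCast w 3, ← Real.rpow_mul hw0.le, ← Real.rpow_add hw0]
    congr 2
    · ring
    · rw [hβ]; push_cast; ring
  have e2 : (w / 32) ^ (1 / 2 : ℝ) = w ^ (1 / 2 : ℝ) / 32 ^ (1 / 2 : ℝ) :=
    Real.div_rpow hw0.le (by norm_num) _
  rw [e1, e2, lt_div_iff₀ (by positivity)]
  have hp : 0 < w ^ (1 / 2 : ℝ) := Real.rpow_pos_of_pos hw0 _
  calc C * (8 ^ (α / 2) * (w ^ (1 / 2 : ℝ) * w ^ β)) * 32 ^ (1 / 2 : ℝ)
      = w ^ (1 / 2 : ℝ) * (C' * w ^ β) := by rw [hC']; ring
    _ < w ^ (1 / 2 : ℝ) * 1 := by exact mul_lt_mul_of_pos_left h1 hp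
    _ = w ^ (1 / 2 : ℝ) := mul_one _

theorem strong_upper (d : ℕ) (hd : 2 ≤ d) (α : ℝ) (hα : 1 / 3 < α) :
    ∃ K Y : Set (EuclideanSpace ℝ (Fin d)), IsCompact K ∧ Convex ℝ K ∧ (interior K).Nonempty ∧
      IsCompact Y ∧ Y.Nonempty ∧
      ∀ C : ℝ≥0, ∃ μ ν : Measure (EuclideanSpace ℝ (Fin d)),
        IsProbabilityMeasure μ ∧ IsProbabilityMeasure ν ∧ μ Y = 1 ∧ ν Y = 1 ∧
        (∃ T, IsOTMap (unif K) μ T) ∧ (∃ S, IsOTMap (unif K) ν S) ∧
        ∀ T S : EuclideanSpace ℝ (Fin d) → EuclideanSpace ℝ (Fin d),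
          IsOTMap (unif K) μ T → IsOTMap (unif K) ν S →
          (C : ℝ≥0∞) * W2 μ ν ^ α < eLpNorm (fun x => T x - S x) 2 (unif K) := by
  obtain ⟨n, rfl⟩ : ∃ n, d = n + 2 := ⟨d - 2, by omega⟩
  refine ⟨cube n, Metric.closedBall 0 2, cube_isCompact n, cube_convex n,
    cube_interior_nonempty n, isCompact_closedBall 0 2, ⟨0, by simp⟩, fun C => ?_⟩
  obtain ⟨w, hw, hw2, hlt⟩ := real_choice C α hα
  have hsupp : ∀ t : ℝ, |t| ≤ 1 →
      ((unif (cube n)).map (Tmap n w t)) (Metric.closedBall 0 2) = 1 := by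
    intro t ht
    rw [Measure.map_apply (Tmap_measurable n w t) Metric.isClosed_closedBall.measurableSet]
    have : (Tmap n w t) ⁻¹' (Metric.closedBall 0 2) = Set.univ := by
      ext x
      simp only [Set.mem_preimage, Metric.mem_closedBall, dist_zero_right, Set.mem_univ, iff_true]
      have := atoms_norm n t _ (Tmap_mem n w t x)
      linarith
    rw [this, measure_univ]
  have hwabs : |w| ≤ 1 := by rw [abs_of_pos hw]; linarith
  refine ⟨(unif (cube n)).map (Tmap n w w), (unif (cube n)).map (Tmap n w (-w)),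
    Measure.isProbabilityMeasure_map (Tmap_measurable n w w).aemeasurable,
    Measure.isProbabilityMeasure_map (Tmap_measurable n w (-w)).aemeasurable,
    hsupp w hwabs, hsupp (-w) (by rwa [abs_neg]),
    ⟨_, Tmap_isOTMap n w w⟩, ⟨_, Tmap_isOTMap n w (-w)⟩, fun T S hT hS => ?_⟩
  calc (C : ℝ≥0∞) * W2 ((unif (cube n)).map (Tmap n w w)) ((unif (cube n)).map (Tmap n w (-w))) ^ α
      ≤ (C : ℝ≥0∞) * (ENNReal.ofReal (8 * w ^ 3) ^ (1 / 2 : ℝ)) ^ α := by
        gcongr
        exact W2_le n hw hw2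
    _ < ENNReal.ofReal (w / 32) ^ (1 / 2 : ℝ) := by
        rw [ENNReal.ofReal_rpow_of_pos (by positivity), ENNReal.ofReal_rpow_of_pos (by positivity),
          ENNReal.ofReal_rpow_of_pos (by positivity), ← ENNReal.ofReal_coe_nnreal,
          ← ENNReal.ofReal_mul C.coe_nonneg]
        exact (ENNReal.ofReal_lt_ofReal_iff (by positivity)).mpr hlt
    _ ≤ _ := L2_ge n hw hw2 hT hS

theorem admissible_le (d : ℕ) (hd : 2 ≤ d) (α : ℝ) (h : Admissible d α) : α ≤ 1 / 3 := by
  by_contra hcon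
  obtain ⟨K, Y, hK, hKc, hKi, hY, hYn, hbad⟩ := strong_upper d hd α (not_le.mp hcon)
  obtain ⟨C, hC⟩ := h.2.2 K hK hKc hKi Y hY hYn
  obtain ⟨μ, ν, hμ, hν, hμY, hνY, ⟨T, hT⟩, ⟨S, hS⟩, hlt⟩ := hbad C
  exact absurd (hC μ ν hμ hν hμY hνY T S hT hS) (not_le.mpr (hlt T S hT hS))

end Vale.Agent.P074
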