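import Vale.Agent.P074.Dual

open MeasureTheory
open scoped ENNReal NNReal RealInnerProductSpace

namespace Vale.Agent.P074

variable {d : ℕ}

lemma continuous_of_lip {χ : EE d → ℝ} {c : ℝ} (h : ∀ y z, |χ y - χ z| ≤ c * ‖y - z‖) :
    Continuous χ := by
  have hL : LipschitzWith (Real.toNNReal c) χ := by
    apply LipschitzWith.of_dist_le_mul
    intro y z
    rw [Real.dist_eq, dist_eq_norm]
    refine (h y z).trans ?_
    apply mul_le_mul_of_nonneg_right _ (norm_nonneg _)
    exact Real.le_coe_toNNReal c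
  exact hL.continuous

lemma integrable_comp_of_bdd {ρ : Measure (EE d)} [IsProbabilityMeasure ρ] {Y : Set (EE d)} {R c : ℝ}
    (hYR : ∀ y ∈ Y, ‖y‖ ≤ R) {T : EE d → EE d} (hT : Measurable T) (hTY : ∀ᵐ x ∂ρ, T x ∈ Y)
    {χ : EE d → ℝ} (hc : 0 ≤ c) (h : ∀ y z, |χ y - χ z| ≤ c * ‖y - z‖) :
    Integrable (fun x => χ (T x)) ρ := by
  have hcont := continuous_of_lip h
  apply Integrable.of_bound ((hcont.measurable.comp hT).aestronglyMeasurable) (|χ 0| + c * R)
  filter_upwards [hTY] with x hx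
  rw [Real.norm_eq_abs]
  show |χ (T x)| ≤ |χ 0| + c * R
  have h1 := h (T x) 0
  rw [sub_zero] at h1
  have h2 : c * ‖T x‖ ≤ c * R := mul_le_mul_of_nonneg_left (hYR _ hx) hc
  have h3 : |χ (T x)| ≤ |χ (T x) - χ 0| + |χ 0| := by
    have := abs_add_le (χ (T x) - χ 0) (χ 0)
    simpa using this
  linarith

theorem gap_le_coupling {K Y : Set (EE d)} (hK : IsCompact K) (hKi : (interior K).Nonempty)
    {r R : ℝ} (hKr : ∀ x ∈ K, ‖x‖ ≤ r) (hYR : ∀ y ∈ Y, ‖y‖ ≤ R) (hYm : MeasurableSet Y)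
    {T S : EE d → EE d} (hT : Measurable T) (hS : Measurable S)
    (hTY : ∀ᵐ x ∂(unif K), T x ∈ Y) (hSY : ∀ᵐ x ∂(unif K), S x ∈ Y)
    {φ ψ φ' ψ' : EE d → ℝ} (h1 : DualPair (unif K) Y T r R φ ψ)
    (h2 : DualPair (unif K) Y S r R φ' ψ')
    {π : Measure (EE d × EE d)} (hπ : IsCoupling ((unif K).map T) ((unif K).map S) π) :
    ENNReal.ofReal (∫ x, ((φ x + ψ (S x) - ⟪x, S x⟫) + (φ' x + ψ' (T x) - ⟪x, T x⟫)) ∂(unif K))
      ≤ ENNReal.ofReal (2 * r) * (∫⁻ p, ENNReal.ofReal (‖p.1 - p.2‖ ^ 2) ∂π) ^ (1 / 2 : ℝ) := by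
  have hprob : IsProbabilityMeasure (unif K) := unif_isProbabilityMeasure hK hKi
  have hr : 0 ≤ r := by
    obtain ⟨x, hx⟩ := hKi
    exact (norm_nonneg x).trans (hKr x (interior_subset hx))
  have hπprob : IsProbabilityMeasure π := by
    constructor
    have e1 : (π.map Prod.fst) Set.univ = π Set.univ := by
      rw [Measure.map_apply measurable_fst MeasurableSet.univ, Set.preimage_univ]
    rw [← e1, hπ.1, Measure.map_apply hT MeasurableSet.univ, Set.preimage_univ]
    exact measure_univ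
  set χ : EE d → ℝ := fun y => ψ y - ψ' y with hχ
  have hχlip : ∀ y z, |χ y - χ z| ≤ (2 * r) * ‖y - z‖ := by
    intro y z
    have a1 := h1.lipψ y z
    have a2 := h2.lipψ y z
    have : χ y - χ z = (ψ y - ψ z) - (ψ' y - ψ' z) := by simp only [hχ]; ring
    rw [this]
    have := abs_sub (ψ y - ψ z) (ψ' y - ψ' z)
    linarith
  have hχcont : Continuous χ := continuous_of_lip hχlip
  have h2r : 0 ≤ 2 * r := by linarith
  have hiT : Integrable (fun x => χ (T x)) (unif K) :=
    integrable_comp_of_bdd hYR hT hTY h2r hχlip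
  have hiS : Integrable (fun x => χ (S x)) (unif K) :=
    integrable_comp_of_bdd hYR hS hSY h2r hχlip
  have hnlip : ∀ y z : EE d, |‖y‖ - ‖z‖| ≤ 1 * ‖y - z‖ := by
    intro y z
    rw [one_mul]
    exact abs_norm_sub_norm_le y z
  have hnT : Integrable (fun x => ‖T x‖) (unif K) :=
    integrable_comp_of_bdd hYR hT hTY zero_le_one hnlip
  have hnS : Integrable (fun x => ‖S x‖) (unif K) :=
    integrable_comp_of_bdd hYR hS hSY zero_le_one hnlip
  have tr1 : ∀ f : EE d → ℝ, Continuous f → Integrable (fun x => f (T x)) (unif K) →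
      Integrable (fun p : EE d × EE d => f p.1) π ∧
        ∫ p, f p.1 ∂π = ∫ x, f (T x) ∂(unif K) := by
    intro f hf hfi
    have hfm : AEStronglyMeasurable f ((unif K).map T) := hf.aestronglyMeasurable
    have hfm' : AEStronglyMeasurable f (π.map Prod.fst) := hf.aestronglyMeasurable
    have i1 : Integrable f ((unif K).map T) := (integrable_map_measure hfm hT.aemeasurable).mpr hfi
    constructor
    · rw [← hπ.1] at i1
      exact (integrable_map_measure hfm' measurable_fst.aemeasurable).mp i1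
    · rw [← integral_map hT.aemeasurable hfm, ← hπ.1,
        integral_map measurable_fst.aemeasurable hfm']
  have tr2 : ∀ f : EE d → ℝ, Continuous f → Integrable (fun x => f (S x)) (unif K) →
      Integrable (fun p : EE d × EE d => f p.2) π ∧
        ∫ p, f p.2 ∂π = ∫ x, f (S x) ∂(unif K) := by
    intro f hf hfi
    have hfm : AEStronglyMeasurable f ((unif K).map S) := hf.aestronglyMeasurable
    have hfm' : AEStronglyMeasurable f (π.map Prod.snd) := hf.aestronglyMeasurable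
    have i1 : Integrable f ((unif K).map S) := (integrable_map_measure hfm hS.aemeasurable).mpr hfi
    constructor
    · rw [← hπ.2] at i1
      exact (integrable_map_measure hfm' measurable_snd.aemeasurable).mp i1
    · rw [← integral_map hS.aemeasurable hfm, ← hπ.2,
        integral_map measurable_snd.aemeasurable hfm']
  obtain ⟨iχ1, eχ1⟩ := tr1 χ hχcont hiT
  obtain ⟨iχ2, eχ2⟩ := tr2 χ hχcont hiS
  obtain ⟨in1, -⟩ := tr1 (fun y => ‖y‖) continuous_norm hnT
  obtain ⟨in2, -⟩ := tr2 (fun y => ‖y‖) continuous_norm hnS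
  have hDmeas : Measurable (fun p : EE d × EE d => ‖p.1 - p.2‖) :=
    (measurable_fst.sub measurable_snd).norm
  have iD : Integrable (fun p : EE d × EE d => ‖p.1 - p.2‖) π := by
    apply Integrable.mono' (in1.add in2) hDmeas.aestronglyMeasurable
    filter_upwards with p
    rw [norm_norm]
    exact norm_sub_le _ _
  have step1 : ∫ x, ((φ x + ψ (S x) - ⟪x, S x⟫) + (φ' x + ψ' (T x) - ⟪x, T x⟫)) ∂(unif K)
      = ∫ x, (χ (S x) - χ (T x)) ∂(unif K) := by
    apply integral_congr_ae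
    filter_upwards [h1.eq, h2.eq] with x e1 e2
    rw [e1, e2]
    simp only [hχ]
    ring
  have step2 : ∫ x, (χ (S x) - χ (T x)) ∂(unif K) = ∫ p, (χ p.2 - χ p.1) ∂π := by
    rw [integral_sub hiS hiT, integral_sub iχ2 iχ1, eχ1, eχ2]
  have step3 : ∫ p, (χ p.2 - χ p.1) ∂π ≤ ∫ p, (2 * r) * ‖p.1 - p.2‖ ∂π := by
    apply integral_mono (iχ2.sub iχ1) (iD.const_mul _)
    intro p
    have := hχlip p.2 p.1
    rw [norm_sub_rev] at this
    exact (le_abs_self _).trans this
  have step4 : ENNReal.ofReal (∫ p, (2 * r) * ‖p.1 - p.2‖ ∂π)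
      = ENNReal.ofReal (2 * r) * ∫⁻ p, ENNReal.ofReal ‖p.1 - p.2‖ ∂π := by
    rw [integral_const_mul, ENNReal.ofReal_mul h2r,
      ofReal_integral_eq_lintegral_ofReal iD (Filter.Eventually.of_forall fun p => norm_nonneg _)]
  have step5 : ∫⁻ p, ENNReal.ofReal ‖p.1 - p.2‖ ∂π
      ≤ (∫⁻ p, ENNReal.ofReal (‖p.1 - p.2‖ ^ 2) ∂π) ^ (1 / 2 : ℝ) := by
    have hol := ENNReal.lintegral_mul_le_Lp_mul_Lq π (Real.HolderConjugate.two_two)
      (f := fun p : EE d × EE d => ENNReal.ofReal ‖p.1 - p.2‖) (g := fun _ => 1)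
      (hDmeas.ennreal_ofReal.aemeasurable) aemeasurable_const
    simp only [Pi.mul_apply, mul_one, ENNReal.one_rpow, lintegral_const, measure_univ] at hol
    refine hol.trans (le_of_eq ?_)
    congr 1
    apply lintegral_congr
    intro p
    rw [ENNReal.ofReal_rpow_of_nonneg (norm_nonneg _) (by norm_num)]
    congr 1
    exact Real.rpow_ofNat _ 2
  calc _ = ENNReal.ofReal (∫ p, (χ p.2 - χ p.1) ∂π) := by rw [step1, step2]
    _ ≤ ENNReal.ofReal (∫ p, (2 * r) * ‖p.1 - p.2‖ ∂π) := ENNReal.ofReal_le_ofReal step3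
    _ = ENNReal.ofReal (2 * r) * ∫⁻ p, ENNReal.ofReal ‖p.1 - p.2‖ ∂π := step4
    _ ≤ _ := mul_le_mul_right step5 _

end Vale.Agent.P074
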