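import Vale.Agent.P074.Cube

open MeasureTheory
open scoped ENNReal NNReal RealInnerProductSpace

namespace Vale.Agent.P074

variable {d : ℕ}

section Tau

variable {ι : Type} [Fintype ι]

/-- Translate the ball around `c i` onto the ball around `c (σ i)`, identity elsewhere. -/
noncomputable def tau (c : ι → EE d) (δ : ℝ) (σ : Equiv.Perm ι) (x : EE d) : EE d :=
  x + ∑ i, (Metric.closedBall (c i) δ).indicator (fun _ => c (σ i) - c i) x

lemma measurable_tau (c : ι → EE d) (δ : ℝ) (σ : Equiv.Perm ι) : Measurable (tau c δ σ) := by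
  unfold tau
  refine measurable_id.add (Finset.measurable_sum _ fun i _ => ?_)
  exact measurable_const.indicator measurableSet_closedBall

variable {c : ι → EE d} {δ : ℝ}

lemma tau_of_mem
    (hdisj : Pairwise (fun i j => Disjoint (Metric.closedBall (c i) δ) (Metric.closedBall (c j) δ)))
    (σ : Equiv.Perm ι) {i : ι} {x : EE d} (hx : x ∈ Metric.closedBall (c i) δ) :
    tau c δ σ x = x + (c (σ i) - c i) := by
  unfold tau
  congr 1
  rw [Finset.sum_eq_single i]
  · exact Set.indicator_of_mem hx _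
  · intro j _ hji
    apply Set.indicator_of_notMem
    intro hxj
    exact (Set.disjoint_left.1 (hdisj hji) hxj) hx
  · intro h
    exact absurd (Finset.mem_univ i) h

lemma tau_of_notMem (σ : Equiv.Perm ι) {x : EE d}
    (hx : ∀ i, x ∉ Metric.closedBall (c i) δ) : tau c δ σ x = x := by
  unfold tau
  rw [Finset.sum_eq_zero, add_zero]
  intro i _
  exact Set.indicator_of_notMem (hx i) _

omit [Fintype ι] in
lemma add_mem_ball_iff (σ : Equiv.Perm ι) (i : ι) (x : EE d) :
    x + (c (σ i) - c i) ∈ Metric.closedBall (c (σ i)) δ ↔ x ∈ Metric.closedBall (c i) δ := by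
  simp only [Metric.mem_closedBall, dist_eq_norm]
  have : x + (c (σ i) - c i) - c (σ i) = x - c i := by abel
  rw [this]

lemma tau_inv_tau
    (hdisj : Pairwise (fun i j => Disjoint (Metric.closedBall (c i) δ) (Metric.closedBall (c j) δ)))
    (σ : Equiv.Perm ι) (x : EE d) : tau c δ σ⁻¹ (tau c δ σ x) = x := by
  by_cases h : ∃ i, x ∈ Metric.closedBall (c i) δ
  · obtain ⟨i, hi⟩ := h
    rw [tau_of_mem hdisj σ hi, tau_of_mem hdisj σ⁻¹ ((add_mem_ball_iff σ i x).2 hi)]
    have : σ⁻¹ (σ i) = i := by simp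
    rw [this]
    abel
  · push Not at h
    rw [tau_of_notMem σ h, tau_of_notMem σ⁻¹ h]

lemma volume_split {K : Set (EE d)}
    (hsub : ∀ i, Metric.closedBall (c i) δ ⊆ K)
    (hdisj : Pairwise (fun i j => Disjoint (Metric.closedBall (c i) δ) (Metric.closedBall (c j) δ)))
    {A : Set (EE d)} (hA : MeasurableSet A) :
    volume (A ∩ K) = volume (A ∩ (K \ ⋃ i, Metric.closedBall (c i) δ))
      + ∑ i, volume (A ∩ Metric.closedBall (c i) δ) := by
  have hU : MeasurableSet (⋃ i, Metric.closedBall (c i) δ) :=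
    MeasurableSet.iUnion fun i => measurableSet_closedBall
  have h1 : A ∩ K = (A ∩ (K \ ⋃ i, Metric.closedBall (c i) δ))
      ∪ ⋃ i, (A ∩ Metric.closedBall (c i) δ) := by
    ext x
    simp only [Set.mem_inter_iff, Set.mem_union, Set.mem_sdiff, Set.mem_iUnion, not_exists]
    constructor
    · rintro ⟨hxA, hxK⟩
      by_cases h : ∃ i, x ∈ Metric.closedBall (c i) δ
      · obtain ⟨i, hi⟩ := h
        exact Or.inr ⟨i, hxA, hi⟩
      · push Not at h
        exact Or.inl ⟨hxA, hxK, h⟩
    · rintro (⟨hxA, hxK, _⟩ | ⟨i, hxA, hi⟩)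
      · exact ⟨hxA, hxK⟩
      · exact ⟨hxA, hsub i hi⟩
  rw [h1, measure_union, measure_iUnion, tsum_fintype]
  · intro i j hij
    exact (hdisj hij).mono Set.inter_subset_right Set.inter_subset_right
  · intro i
    exact hA.inter measurableSet_closedBall
  · rw [Set.disjoint_left]
    rintro x ⟨_, _, hx⟩ hx2
    simp only [Set.mem_iUnion, Set.mem_inter_iff] at hx2 hx
    obtain ⟨i, _, hi⟩ := hx2
    exact hx ⟨i, hi⟩
  · exact MeasurableSet.iUnion fun i => hA.inter measurableSet_closedBall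

lemma tau_measurePreserving {K : Set (EE d)}
    (hsub : ∀ i, Metric.closedBall (c i) δ ⊆ K)
    (hdisj : Pairwise (fun i j => Disjoint (Metric.closedBall (c i) δ) (Metric.closedBall (c j) δ)))
    (σ : Equiv.Perm ι) :
    MeasurePreserving (tau c δ σ) (volume.restrict K) (volume.restrict K) := by
  refine ⟨measurable_tau c δ σ, ?_⟩
  ext s hs
  rw [Measure.map_apply (measurable_tau c δ σ) hs, Measure.restrict_apply hs,
    Measure.restrict_apply (measurable_tau c δ σ hs),
    volume_split hsub hdisj hs, volume_split hsub hdisj (measurable_tau c δ σ hs)]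
  congr 1
  · congr 1
    ext x
    simp only [Set.mem_inter_iff, Set.mem_preimage, Set.mem_sdiff, Set.mem_iUnion, not_exists]
    constructor
    · rintro ⟨h1, h2, h3⟩
      rw [tau_of_notMem σ h3] at h1
      exact ⟨h1, h2, h3⟩
    · rintro ⟨h1, h2, h3⟩
      rw [tau_of_notMem σ h3]
      exact ⟨h1, h2, h3⟩
  · rw [← Equiv.sum_comp σ (fun k => volume (s ∩ Metric.closedBall (c k) δ))]
    refine Finset.sum_congr rfl fun i _ => ?_
    have : tau c δ σ ⁻¹' s ∩ Metric.closedBall (c i) δ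
        = (fun x => x + (c (σ i) - c i)) ⁻¹' (s ∩ Metric.closedBall (c (σ i)) δ) := by
      ext x
      simp only [Set.mem_inter_iff, Set.mem_preimage]
      rw [add_mem_ball_iff σ i x]
      constructor
      · rintro ⟨h1, h2⟩
        rw [tau_of_mem hdisj σ h2] at h1
        exact ⟨h1, h2⟩
      · rintro ⟨h1, h2⟩
        rw [tau_of_mem hdisj σ h2]
        exact ⟨h1, h2⟩
    rw [this, measure_preimage_add_right]

lemma tau_measurePreserving_unif {K : Set (EE d)}
    (hsub : ∀ i, Metric.closedBall (c i) δ ⊆ K)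
    (hdisj : Pairwise (fun i j => Disjoint (Metric.closedBall (c i) δ) (Metric.closedBall (c j) δ)))
    (σ : Equiv.Perm ι) :
    MeasurePreserving (tau c δ σ) (unif K) (unif K) := by
  refine ⟨measurable_tau c δ σ, ?_⟩
  unfold unif
  rw [Measure.map_smul, (tau_measurePreserving hsub hdisj σ).map_eq]

end Tau

theorem perm_balls_inequality {K : Set (EE d)} (hK : IsCompact K) (hKi : (interior K).Nonempty)
    {μ : Measure (EE d)} {T : EE d → EE d} (hT : IsOTMap (unif K) μ T)
    {R : ℝ} (hTR : ∀ᵐ x ∂(unif K), ‖T x‖ ≤ R)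
    {ι : Type} [Fintype ι] [DecidableEq ι] (σ : Equiv.Perm ι) (c : ι → EE d) (δ : ℝ)
    (hsub : ∀ i, Metric.closedBall (c i) δ ⊆ K)
    (hdisj : Pairwise (fun i j => Disjoint (Metric.closedBall (c i) δ) (Metric.closedBall (c j) δ))) :
    0 ≤ ∑ i, ⟪c i - c (σ i), ∫ x in Metric.closedBall (c i) δ, T x⟫ := by
  have hKm : MeasurableSet K := hK.measurableSet
  have hprob : IsProbabilityMeasure (unif K) := unif_isProbabilityMeasure hK hKi
  obtain ⟨r, hr⟩ : ∃ r : ℝ, ∀ x ∈ K, ‖x‖ ≤ r := hK.isBounded.exists_norm_le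
  have hKae : ∀ᵐ x ∂(unif K), x ∈ K := by
    rw [ae_iff]
    exact unif_compl hKm
  have hrae : ∀ᵐ x ∂(unif K), ‖x‖ ≤ r := hKae.mono fun x hx => hr x hx
  have mpθ := tau_measurePreserving_unif hsub hdisj σ
  have mpθi := tau_measurePreserving_unif hsub hdisj σ⁻¹
  have hθm := measurable_tau c δ σ
  have hθim := measurable_tau c δ σ⁻¹
  have hSm : Measurable (fun x => T (tau c δ σ⁻¹ x)) := hT.1.comp hθim
  have hSmap : (unif K).map (fun x => T (tau c δ σ⁻¹ x)) = μ := by
    have : (fun x => T (tau c δ σ⁻¹ x)) = T ∘ tau c δ σ⁻¹ := rfl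
    rw [this, ← Measure.map_map hT.1 hθim, mpθi.map_eq, hT.2.1]
  have hSR : ∀ᵐ x ∂(unif K), ‖T (tau c δ σ⁻¹ x)‖ ≤ R := mpθi.quasiMeasurePreserving.ae hTR
  have hθr : ∀ᵐ x ∂(unif K), ‖tau c δ σ x‖ ≤ r := mpθ.quasiMeasurePreserving.ae hrae
  have hcost := hT.2.2 _ hSm hSmap
  obtain ⟨i1, e1⟩ := cost_eq_ofReal hT.1 hrae hTR
  obtain ⟨i2, e2⟩ := cost_eq_ofReal hSm hrae hSR
  rw [e1, e2] at hcost
  have hle : ∫ x, ‖x - T x‖ ^ 2 ∂(unif K) ≤ ∫ x, ‖x - T (tau c δ σ⁻¹ x)‖ ^ 2 ∂(unif K) :=
    (ENNReal.ofReal_le_ofReal_iff (integral_nonneg fun x => by positivity)).1 hcost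
  have hch : ∫ x, ‖x - T (tau c δ σ⁻¹ x)‖ ^ 2 ∂(unif K)
      = ∫ w, ‖tau c δ σ w - T w‖ ^ 2 ∂(unif K) := by
    have h1 := integral_map (μ := unif K) (φ := tau c δ σ) hθm.aemeasurable
      (f := fun x => ‖x - T (tau c δ σ⁻¹ x)‖ ^ 2)
      ((measurable_id.sub hSm).norm.pow_const 2).aestronglyMeasurable
    rw [mpθ.map_eq] at h1
    rw [h1]
    refine integral_congr_ae (Filter.Eventually.of_forall fun w => ?_)
    simp only [tau_inv_tau hdisj σ w]
  have hn : ∫ x, ‖x‖ ^ 2 ∂(unif K) = ∫ w, ‖tau c δ σ w‖ ^ 2 ∂(unif K) := by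
    have h1 := integral_map (μ := unif K) (φ := tau c δ σ) hθm.aemeasurable
      (f := fun x => ‖x‖ ^ 2) (measurable_norm.pow_const 2).aestronglyMeasurable
    rw [mpθ.map_eq] at h1
    exact h1
  have r0 : 0 ≤ r := by
    obtain ⟨x, hx⟩ := hrae.exists
    exact (norm_nonneg _).trans hx
  have in1 : Integrable (fun x : EE d => ‖x‖ ^ 2) (unif K) := by
    refine Integrable.of_bound (C := r ^ 2) (measurable_norm.pow_const 2).aestronglyMeasurable ?_
    filter_upwards [hrae] with x hx
    rw [Real.norm_eq_abs, abs_of_nonneg (by positivity)]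
    exact pow_le_pow_left₀ (norm_nonneg _) hx 2
  have in2 : Integrable (fun x : EE d => ‖tau c δ σ x‖ ^ 2) (unif K) := by
    refine Integrable.of_bound (C := r ^ 2) (hθm.norm.pow_const 2).aestronglyMeasurable ?_
    filter_upwards [hθr] with x hx
    rw [Real.norm_eq_abs, abs_of_nonneg (by positivity)]
    exact pow_le_pow_left₀ (norm_nonneg _) hx 2
  have in3 : Integrable (fun w : EE d => ‖tau c δ σ w - T w‖ ^ 2) (unif K) := by
    refine Integrable.of_bound (C := (r + R) ^ 2)
      ((hθm.sub hT.1).norm.pow_const 2).aestronglyMeasurable ?_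
    filter_upwards [hθr, hTR] with x h1 h2
    rw [Real.norm_eq_abs, abs_of_nonneg (by positivity)]
    exact pow_le_pow_left₀ (norm_nonneg _) ((norm_sub_le _ _).trans (add_le_add h1 h2)) 2
  have hTint : Integrable T (unif K) :=
    Integrable.of_bound (C := R) hT.1.aestronglyMeasurable hTR
  -- the key integral is nonnegative
  have key : 0 ≤ ∫ w, ⟪w - tau c δ σ w, T w⟫ ∂(unif K) := by
    have hpt : ∀ w, ⟪w - tau c δ σ w, T w⟫
        = (1 / 2 : ℝ) * ((‖tau c δ σ w - T w‖ ^ 2 - ‖w - T w‖ ^ 2)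
            - (‖tau c δ σ w‖ ^ 2 - ‖w‖ ^ 2)) := by
      intro w
      rw [norm_sub_sq_real, norm_sub_sq_real, inner_sub_left]
      ring
    simp_rw [hpt]
    have e3 : ∫ a, (‖tau c δ σ a - T a‖ ^ 2 - ‖a - T a‖ ^ 2
        - (‖tau c δ σ a‖ ^ 2 - ‖a‖ ^ 2)) ∂(unif K)
        = (∫ a, ‖tau c δ σ a - T a‖ ^ 2 ∂(unif K) - ∫ a, ‖a - T a‖ ^ 2 ∂(unif K))
          - (∫ a, ‖tau c δ σ a‖ ^ 2 ∂(unif K) - ∫ a, ‖a‖ ^ 2 ∂(unif K)) := by
      rw [← integral_sub in3 i1, ← integral_sub in2 in1]
      exact integral_sub (in3.sub i1) (in2.sub in1)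
    rw [integral_const_mul, e3, ← hn, ← hch]
    linarith
  have hsum : ∀ w, ⟪w - tau c δ σ w, T w⟫
      = ∑ i, (Metric.closedBall (c i) δ).indicator (fun w => ⟪c i - c (σ i), T w⟫) w := by
    intro w
    unfold tau
    rw [sub_add_cancel_left, ← Finset.sum_neg_distrib, sum_inner]
    refine Finset.sum_congr rfl fun i _ => ?_
    by_cases hw : w ∈ Metric.closedBall (c i) δ
    · rw [Set.indicator_of_mem hw, Set.indicator_of_mem hw, neg_sub]
    · rw [Set.indicator_of_notMem hw, Set.indicator_of_notMem hw, neg_zero, inner_zero_left]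
  have hv0 : volume K ≠ 0 := by
    have : 0 < volume (interior K) := isOpen_interior.measure_pos volume hKi
    exact (this.trans_le (measure_mono interior_subset)).ne'
  have hv1 : volume K ≠ ∞ := hK.measure_lt_top.ne
  have hterm : ∀ i, ∫ w, (Metric.closedBall (c i) δ).indicator
        (fun w => ⟪c i - c (σ i), T w⟫) w ∂(unif K)
      = ((volume K)⁻¹).toReal * ⟪c i - c (σ i), ∫ x in Metric.closedBall (c i) δ, T x⟫ := by
    intro i
    rw [integral_indicator measurableSet_closedBall, integral_inner hTint.integrableOn]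
    have : (unif K).restrict (Metric.closedBall (c i) δ)
        = (volume K)⁻¹ • volume.restrict (Metric.closedBall (c i) δ) := by
      unfold unif
      rw [Measure.restrict_smul, Measure.restrict_restrict measurableSet_closedBall,
        Set.inter_eq_left.2 (hsub i)]
    rw [this, integral_smul_measure, inner_smul_right]
  simp_rw [hsum] at key
  rw [integral_finsetSum] at key
  · simp_rw [hterm] at key
    rw [← Finset.mul_sum] at key
    have hpos : 0 < ((volume K)⁻¹).toReal :=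
      ENNReal.toReal_pos (ENNReal.inv_ne_zero.2 hv1) (ENNReal.inv_ne_top.2 hv0)
    exact nonneg_of_mul_nonneg_right key hpos
  · intro i _
    exact (hTint.const_inner (c i - c (σ i))).indicator measurableSet_closedBall

end Vale.Agent.P074
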