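import Vale.Agent.P074.Defs

open MeasureTheory
open scoped ENNReal NNReal RealInnerProductSpace

namespace Vale.Agent.P074

abbrev EE (d : ℕ) := EuclideanSpace ℝ (Fin d)

variable {d : ℕ}

lemma cost_eq_ofReal {ρ : Measure (EE d)} [IsFiniteMeasure ρ] {S : EE d → EE d}
    (hS : Measurable S) {r R : ℝ} (hr : ∀ᵐ x ∂ρ, ‖x‖ ≤ r) (hR : ∀ᵐ x ∂ρ, ‖S x‖ ≤ R) :
    Integrable (fun x => ‖x - S x‖ ^ 2) ρ ∧
      cost ρ S = ENNReal.ofReal (∫ x, ‖x - S x‖ ^ 2 ∂ρ) := by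
  have hint : Integrable (fun x => ‖x - S x‖ ^ 2) ρ := by
    refine Integrable.of_bound (C := (r + R) ^ 2) ?_ ?_
    · exact ((measurable_id.sub hS).norm.pow_const 2).aestronglyMeasurable
    · filter_upwards [hr, hR] with x h1 h2
      rw [Real.norm_eq_abs, abs_of_nonneg (by positivity)]
      have : ‖x - S x‖ ≤ r + R := (norm_sub_le _ _).trans (add_le_add h1 h2)
      exact pow_le_pow_left₀ (norm_nonneg _) this 2
  refine ⟨hint, ?_⟩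
  rw [ofReal_integral_eq_lintegral_ofReal hint (Filter.Eventually.of_forall fun x => by positivity)]
  rfl

lemma ae_mem_of_map_eq {ρ : Measure (EE d)} {T S : EE d → EE d}
    (hT : Measurable T) (hS : Measurable S) (hmap : ρ.map S = ρ.map T)
    {A : Set (EE d)} (hA : MeasurableSet A) (hTA : ∀ᵐ x ∂ρ, T x ∈ A) :
    ∀ᵐ x ∂ρ, S x ∈ A := by
  have h1 : (ρ.map T) Aᶜ = 0 := by
    rw [Measure.map_apply hT hA.compl]
    exact hTA
  rw [← hmap, Measure.map_apply hS hA.compl] at h1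
  exact h1

lemma potential_identity {ρ : Measure (EE d)} [IsProbabilityMeasure ρ] {T S : EE d → EE d}
    (hT : Measurable T) (hS : Measurable S) (hmap : ρ.map S = ρ.map T)
    {A : Set (EE d)} (hA : MeasurableSet A) (hTA : ∀ x, T x ∈ A)
    {φ ψ : EE d → ℝ} (hφ : Measurable φ) (hψ : Measurable ψ)
    {r R c1 c2 : ℝ} (hr : ∀ᵐ x ∂ρ, ‖x‖ ≤ r) (hφb : ∀ᵐ x ∂ρ, |φ x| ≤ c1)
    (hAb : ∀ y ∈ A, ‖y‖ ≤ R) (hψb : ∀ y ∈ A, |ψ y| ≤ c2)
    (heq : ∀ x, ⟪x, T x⟫ = φ x + ψ (T x)) :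
    Integrable (fun x => φ x + ψ (S x) - ⟪x, S x⟫) ρ ∧
    ∫ x, ‖x - S x‖ ^ 2 ∂ρ = ∫ x, ‖x - T x‖ ^ 2 ∂ρ
      + 2 * ∫ x, (φ x + ψ (S x) - ⟪x, S x⟫) ∂ρ := by
  have hSA : ∀ᵐ x ∂ρ, S x ∈ A :=
    ae_mem_of_map_eq hT hS hmap hA (Filter.Eventually.of_forall hTA)
  have hr0 : 0 ≤ r := by
    obtain ⟨x, hx⟩ := hr.exists
    exact (norm_nonneg _).trans hx
  have hR0 : 0 ≤ R := (norm_nonneg _).trans (hAb _ (hTA 0))
  set b : EE d → ℝ := fun y => ‖y‖ ^ 2 - 2 * ψ y with hb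
  have hbm : Measurable b := (measurable_norm.pow_const 2).sub (hψ.const_mul 2)
  have hbb : ∀ y ∈ A, ‖b y‖ ≤ R ^ 2 + 2 * c2 := by
    intro y hy
    have h1 := hAb y hy
    have h2 := hψb y hy
    have h3 : ‖y‖ ^ 2 ≤ R ^ 2 := pow_le_pow_left₀ (norm_nonneg _) h1 2
    rw [Real.norm_eq_abs, hb]
    rw [abs_le] at h2 ⊢
    constructor <;> nlinarith [sq_nonneg ‖y‖]
  have hbS : Integrable (fun x => b (S x)) ρ := by
    refine Integrable.of_bound (C := R ^ 2 + 2 * c2) (hbm.comp hS).aestronglyMeasurable ?_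
    filter_upwards [hSA] with x hx using hbb _ hx
  have hbT : Integrable (fun x => b (T x)) ρ := by
    refine Integrable.of_bound (C := R ^ 2 + 2 * c2) (hbm.comp hT).aestronglyMeasurable ?_
    exact Filter.Eventually.of_forall fun x => hbb _ (hTA x)
  have hbeq : ∫ x, b (S x) ∂ρ = ∫ x, b (T x) ∂ρ := by
    rw [← integral_map hS.aemeasurable hbm.aestronglyMeasurable,
      ← integral_map hT.aemeasurable hbm.aestronglyMeasurable, hmap]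
  set a : EE d → ℝ := fun x => ‖x‖ ^ 2 - 2 * φ x with ha
  have ham : Measurable a := (measurable_norm.pow_const 2).sub (hφ.const_mul 2)
  have hai : Integrable a ρ := by
    refine Integrable.of_bound (C := r ^ 2 + 2 * c1) ham.aestronglyMeasurable ?_
    filter_upwards [hr, hφb] with x h1 h2
    have h3 : ‖x‖ ^ 2 ≤ r ^ 2 := pow_le_pow_left₀ (norm_nonneg _) h1 2
    rw [Real.norm_eq_abs, ha]
    rw [abs_le] at h2 ⊢
    constructor <;> nlinarith [sq_nonneg ‖x‖]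
  have hSint := (cost_eq_ofReal hS hr (hSA.mono fun x hx => hAb _ hx)).1
  have hSdecomp : ∀ x, φ x + ψ (S x) - ⟪x, S x⟫ = (‖x - S x‖ ^ 2 - a x - b (S x)) / 2 := by
    intro x
    rw [norm_sub_sq_real, ha, hb]
    ring
  have hh : Integrable (fun x => φ x + ψ (S x) - ⟪x, S x⟫) ρ := by
    simp_rw [hSdecomp]
    exact ((hSint.sub hai).sub hbS).div_const 2
  refine ⟨hh, ?_⟩
  have e1 : ∫ x, ‖x - S x‖ ^ 2 ∂ρ = ∫ x, a x ∂ρ + ∫ x, b (S x) ∂ρ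
      + 2 * ∫ x, (φ x + ψ (S x) - ⟪x, S x⟫) ∂ρ := by
    have e0 : ∫ x, ‖x - S x‖ ^ 2 ∂ρ
        = ∫ x, ((a x + b (S x)) + 2 * (φ x + ψ (S x) - ⟪x, S x⟫)) ∂ρ := by
      refine integral_congr_ae (Filter.Eventually.of_forall fun x => ?_)
      simp only [hSdecomp]
      ring
    have hab : Integrable (fun x => a x + b (S x)) ρ := hai.add hbS
    rw [e0, integral_add hab (hh.const_mul 2), integral_add hai hbS, integral_const_mul]
  have e2 : ∫ x, ‖x - T x‖ ^ 2 ∂ρ = ∫ x, a x ∂ρ + ∫ x, b (T x) ∂ρ := by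
    rw [← integral_add hai hbT]
    refine integral_congr_ae (Filter.Eventually.of_forall fun x => ?_)
    simp only [ha, hb]
    rw [norm_sub_sq_real, heq x]
    ring
  rw [e1, e2, hbeq]

lemma isOTMap_of_potential {ρ : Measure (EE d)} [IsProbabilityMeasure ρ] {T : EE d → EE d}
    (hT : Measurable T)
    {A : Set (EE d)} (hA : MeasurableSet A) (hTA : ∀ x, T x ∈ A)
    {φ ψ : EE d → ℝ} (hφ : Measurable φ) (hψ : Measurable ψ)
    {r R c1 c2 : ℝ} (hr : ∀ᵐ x ∂ρ, ‖x‖ ≤ r) (hφb : ∀ᵐ x ∂ρ, |φ x| ≤ c1)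
    (hAb : ∀ y ∈ A, ‖y‖ ≤ R) (hψb : ∀ y ∈ A, |ψ y| ≤ c2)
    (heq : ∀ x, ⟪x, T x⟫ = φ x + ψ (T x))
    (hineq : ∀ x, ∀ y ∈ A, ⟪x, y⟫ ≤ φ x + ψ y) :
    IsOTMap ρ (ρ.map T) T := by
  refine ⟨hT, rfl, fun S hS hmap => ?_⟩
  have hSA : ∀ᵐ x ∂ρ, S x ∈ A :=
    ae_mem_of_map_eq hT hS hmap hA (Filter.Eventually.of_forall hTA)
  obtain ⟨hint, hid⟩ := potential_identity hT hS hmap hA hTA hφ hψ hr hφb hAb hψb heq
  rw [(cost_eq_ofReal hS hr (hSA.mono fun x hx => hAb _ hx)).2,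
    (cost_eq_ofReal hT hr (Filter.Eventually.of_forall fun x => hAb _ (hTA x))).2]
  refine ENNReal.ofReal_le_ofReal ?_
  rw [hid]
  have : 0 ≤ ∫ x, (φ x + ψ (S x) - ⟪x, S x⟫) ∂ρ := by
    refine integral_nonneg_of_ae ?_
    filter_upwards [hSA] with x hx
    have := hineq x _ hx
    simp only [Pi.zero_apply]
    linarith
  linarith

lemma ae_contact_of_isOTMap {ρ : Measure (EE d)} [IsProbabilityMeasure ρ] {T S : EE d → EE d}
    (hT : Measurable T)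
    {A : Set (EE d)} (hA : MeasurableSet A) (hTA : ∀ x, T x ∈ A)
    {φ ψ : EE d → ℝ} (hφ : Measurable φ) (hψ : Measurable ψ)
    {r R c1 c2 : ℝ} (hr : ∀ᵐ x ∂ρ, ‖x‖ ≤ r) (hφb : ∀ᵐ x ∂ρ, |φ x| ≤ c1)
    (hAb : ∀ y ∈ A, ‖y‖ ≤ R) (hψb : ∀ y ∈ A, |ψ y| ≤ c2)
    (heq : ∀ x, ⟪x, T x⟫ = φ x + ψ (T x))
    (hineq : ∀ x, ∀ y ∈ A, ⟪x, y⟫ ≤ φ x + ψ y)
    (hSopt : IsOTMap ρ (ρ.map T) S) :
    ∀ᵐ x ∂ρ, S x ∈ A ∧ ⟪x, S x⟫ = φ x + ψ (S x) := by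
  obtain ⟨hS, hmap, hopt⟩ := hSopt
  have hSA : ∀ᵐ x ∂ρ, S x ∈ A :=
    ae_mem_of_map_eq hT hS hmap hA (Filter.Eventually.of_forall hTA)
  obtain ⟨hint, hid⟩ := potential_identity hT hS hmap hA hTA hφ hψ hr hφb hAb hψb heq
  have hle := hopt T hT rfl
  rw [(cost_eq_ofReal hS hr (hSA.mono fun x hx => hAb _ hx)).2,
    (cost_eq_ofReal hT hr (Filter.Eventually.of_forall fun x => hAb _ (hTA x))).2] at hle
  have hTnn : 0 ≤ ∫ x, ‖x - T x‖ ^ 2 ∂ρ := integral_nonneg fun x => by positivity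
  rw [ENNReal.ofReal_le_ofReal_iff hTnn, hid] at hle
  have hnn : 0 ≤ᵐ[ρ] fun x => φ x + ψ (S x) - ⟪x, S x⟫ := by
    filter_upwards [hSA] with x hx
    have := hineq x _ hx
    simp only [Pi.zero_apply]
    linarith
  have h0 : ∫ x, (φ x + ψ (S x) - ⟪x, S x⟫) ∂ρ = 0 :=
    le_antisymm (by linarith) (integral_nonneg_of_ae hnn)
  rw [integral_eq_zero_iff_of_nonneg_ae hnn hint] at h0
  filter_upwards [hSA, h0] with x hx h
  refine ⟨hx, ?_⟩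
  simp only [Pi.zero_apply] at h
  linarith

end Vale.Agent.P074
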