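import Vale.Agent.P074.Dual

open MeasureTheory Set
open scoped ENNReal NNReal RealInnerProductSpace

namespace Vale.Agent.P074

section Chains

variable {E : Type*} [NormedAddCommGroup E] [InnerProductSpace ℝ E]

/-- Value at `x` of the chain `x₀, l, x` for the map `S`. -/
noncomputable def chainVal (S : E → E) : E → List E → E → ℝ
  | x₀, [], x => ⟪S x₀, x - x₀⟫
  | x₀, a :: l, x => ⟪S x₀, a - x₀⟫ + chainVal S a l x

/-- The last point of the chain `x₀, l`. -/
def lastPt {E : Type*} : E → List E → E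
  | x₀, [] => x₀
  | _, a :: l => lastPt a l

lemma lastPt_mem {E : Type*} (G : Set E) :
    ∀ (l : List E) (x₀ : E), x₀ ∈ G → (∀ a ∈ l, a ∈ G) → lastPt x₀ l ∈ G
  | [], x₀, h0, _ => h0
  | a :: l, _, _, hl => lastPt_mem G l a (hl a (by simp)) (fun b hb => hl b (by simp [hb]))

lemma chainVal_sub (S : E → E) : ∀ (l : List E) (x₀ x y : E),
    chainVal S x₀ l x - chainVal S x₀ l y = ⟪S (lastPt x₀ l), x - y⟫
  | [], x₀, x, y => by
      simp only [chainVal, lastPt]
      rw [← inner_sub_right]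
      congr 1
      abel
  | a :: l, x₀, x, y => by
      simp only [chainVal, lastPt]
      rw [← chainVal_sub S l a x y]
      ring

lemma chainVal_append (S : E → E) : ∀ (l : List E) (x₀ a x : E),
    chainVal S x₀ (l ++ [a]) x = chainVal S x₀ l a + ⟪S a, x - a⟫
  | [], x₀, a, x => by simp [chainVal]
  | b :: l, x₀, a, x => by
      simp only [List.cons_append, chainVal]
      rw [chainVal_append S l b a x]
      ring

lemma chainVal_eq_sum (S : E → E) : ∀ (l : List E) (x₀ y : E),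
    chainVal S x₀ l y =
      ∑ i ∈ Finset.range l.length,
        ⟪S ((x₀ :: l).getD i 0), (x₀ :: l).getD (i + 1) 0 - (x₀ :: l).getD i 0⟫
      + ⟪S ((x₀ :: l).getD l.length 0), y - (x₀ :: l).getD l.length 0⟫
  | [], x₀, y => by simp [chainVal]
  | a :: l, x₀, y => by
      simp only [chainVal, List.length_cons]
      rw [Finset.sum_range_succ', chainVal_eq_sum S l a y]
      simp only [List.getD_cons_succ, List.getD_cons_zero]
      ring

/-- Rockafellar: a map which is cyclically monotone on `G` and bounded by `R` there admits a convex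
`R`-Lipschitz potential on the whole space having `S x` as a subgradient at each `x ∈ G`. -/
theorem exists_potential (G : Set E) (S : E → E) (R : NNReal) (hR : ∀ x ∈ G, ‖S x‖ ≤ R)
    (hcm : ∀ x₀ ∈ G, ∀ l : List E, (∀ a ∈ l, a ∈ G) → chainVal S x₀ l x₀ ≤ 0) :
    ∃ ψ : E → ℝ, ConvexOn ℝ univ ψ ∧ LipschitzWith R ψ ∧
      ∀ x ∈ G, ∀ y, ψ x + ⟪S x, y - x⟫ ≤ ψ y := by
  rcases G.eq_empty_or_nonempty with rfl | ⟨x₀, hx₀⟩
  · refine ⟨fun _ => 0, convexOn_const 0 convex_univ, (LipschitzWith.const 0).weaken zero_le, ?_⟩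
    intro x hx
    exact absurd hx (notMem_empty x)
  let ι := {l : List E // ∀ a ∈ l, a ∈ G}
  have : Nonempty ι := ⟨⟨[], by simp⟩⟩
  have hslope : ∀ (l : ι) (x y : E), chainVal S x₀ l.1 x ≤ chainVal S x₀ l.1 y + R * ‖x - y‖ := by
    intro l x y
    have h1 := chainVal_sub S l.1 x₀ x y
    have h2 : ⟪S (lastPt x₀ l.1), x - y⟫ ≤ R * ‖x - y‖ :=
      (real_inner_le_norm _ _).trans
        (mul_le_mul_of_nonneg_right (hR _ (lastPt_mem G l.1 x₀ hx₀ l.2)) (norm_nonneg _))
    linarith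
  have hbdd : ∀ x : E, BddAbove (range fun l : ι => chainVal S x₀ l.1 x) := by
    intro x
    refine ⟨R * ‖x - x₀‖, ?_⟩
    rintro _ ⟨l, rfl⟩
    have := hslope l x x₀
    have h0 := hcm x₀ hx₀ l.1 l.2
    simp only
    linarith
  refine ⟨fun x => ⨆ l : ι, chainVal S x₀ l.1 x, ?_, ?_, ?_⟩
  · refine ⟨convex_univ, ?_⟩
    intro x _ y _ a b ha hb hab
    apply ciSup_le
    intro l
    have hx := le_ciSup (hbdd x) l
    have hy := le_ciSup (hbdd y) l
    have h1 := chainVal_sub S l.1 x₀ (a • x + b • y) x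
    have h2 := chainVal_sub S l.1 x₀ y x
    have h3 : a • x + b • y - x = b • (y - x) := by
      have : a = 1 - b := by linarith
      subst this
      simp only [sub_smul, one_smul, smul_sub]
      abel
    rw [h3, inner_smul_right, ← h2] at h1
    have h4 : chainVal S x₀ l.1 (a • x + b • y)
        = a * chainVal S x₀ l.1 x + b * chainVal S x₀ l.1 y := by
      have : a = 1 - b := by linarith
      subst this
      linarith
    rw [h4]
    simp only [smul_eq_mul]
    exact add_le_add (mul_le_mul_of_nonneg_left hx ha) (mul_le_mul_of_nonneg_left hy hb)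
  · apply LipschitzWith.of_le_add_mul
    intro x y
    apply ciSup_le
    intro l
    have hy := le_ciSup (hbdd y) l
    have := hslope l x y
    rw [dist_eq_norm]
    linarith
  · intro x hx y
    have : (⨆ l : ι, chainVal S x₀ l.1 x) ≤ (⨆ l : ι, chainVal S x₀ l.1 y) - ⟪S x, y - x⟫ := by
      apply ciSup_le
      intro l
      have hmem : ∀ a ∈ l.1 ++ [x], a ∈ G := by
        intro a ha
        rcases List.mem_append.1 ha with h | h
        · exact l.2 a h
        · simp only [List.mem_singleton] at h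
          rw [h]; exact hx
      have hy := le_ciSup (hbdd y) (⟨l.1 ++ [x], hmem⟩ : ι)
      simp only at hy
      rw [chainVal_append] at hy
      linarith
    linarith

/-- Supremum of affine functions `z ↦ ⟪z, s⟫ - c s`, `s ∈ I`. -/
noncomputable def supAff (I : Set E) (c : E → ℝ) (z : E) : ℝ := ⨆ s : I, (⟪z, (s : E)⟫ - c s)

lemma supAff_bdd {I : Set E} {c : E → ℝ} {M m : ℝ} (hM : ∀ s ∈ I, ‖s‖ ≤ M)
    (hc : ∀ s ∈ I, m ≤ c s) (z : E) : BddAbove (range fun s : I => (⟪z, (s : E)⟫ - c s)) := by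
  refine ⟨‖z‖ * M - m, ?_⟩
  rintro _ ⟨s, rfl⟩
  have h1 : ⟪z, (s : E)⟫ ≤ ‖z‖ * M :=
    (real_inner_le_norm _ _).trans (mul_le_mul_of_nonneg_left (hM s s.2) (norm_nonneg _))
  have h2 := hc s s.2
  simp only
  linarith

lemma le_supAff {I : Set E} {c : E → ℝ} {M m : ℝ} (hM : ∀ s ∈ I, ‖s‖ ≤ M)
    (hc : ∀ s ∈ I, m ≤ c s) (z : E) {s : E} (hs : s ∈ I) : ⟪z, s⟫ - c s ≤ supAff I c z :=
  le_ciSup (supAff_bdd hM hc z) (⟨s, hs⟩ : I)

lemma supAff_le {I : Set E} (hI : I.Nonempty) {c : E → ℝ} {z : E} {b : ℝ}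
    (h : ∀ s ∈ I, ⟪z, s⟫ - c s ≤ b) : supAff I c z ≤ b := by
  have : Nonempty I := hI.to_subtype
  exact ciSup_le fun s => h s s.2

lemma supAff_lip {I : Set E} (hI : I.Nonempty) {c : E → ℝ} {M m : ℝ} (hM : ∀ s ∈ I, ‖s‖ ≤ M)
    (hc : ∀ s ∈ I, m ≤ c s) (x z : E) : |supAff I c x - supAff I c z| ≤ M * ‖x - z‖ := by
  have key : ∀ x z : E, supAff I c x ≤ supAff I c z + M * ‖x - z‖ := by
    intro x z
    apply supAff_le hI
    intro s hs
    have h1 := le_supAff hM hc z hs
    have h2 : ⟪x - z, s⟫ ≤ M * ‖x - z‖ := by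
      have := (real_inner_le_norm (x - z) s).trans
        (mul_le_mul_of_nonneg_left (hM s hs) (norm_nonneg _))
      linarith
    rw [inner_sub_left] at h2
    linarith
  rw [abs_le]
  have h1 := key x z
  have h2 := key z x
  rw [norm_sub_rev] at h2
  constructor <;> linarith

lemma supAff_conv {I : Set E} (hI : I.Nonempty) {c : E → ℝ} {M m : ℝ} (hM : ∀ s ∈ I, ‖s‖ ≤ M)
    (hc : ∀ s ∈ I, m ≤ c s) (x v : E) :
    2 * supAff I c x ≤ supAff I c (x + v) + supAff I c (x - v) := by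
  have : supAff I c x ≤ (supAff I c (x + v) + supAff I c (x - v)) / 2 := by
    apply supAff_le hI
    intro s hs
    have h1 := le_supAff hM hc (x + v) hs
    have h2 := le_supAff hM hc (x - v) hs
    rw [inner_add_left] at h1
    rw [inner_sub_left] at h2
    linarith
  linarith

end Chains

variable {d : ℕ}

theorem exists_rockafellar {L : Set (EE d)} (hL : L.Nonempty) {T : EE d → EE d} {R : ℝ}
    (hTR : ∀ x ∈ L, ‖T x‖ ≤ R)
    (hcyc : ∀ (n : ℕ) (x : ℕ → EE d), (∀ i ≤ n, x i ∈ L) →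
        ∑ i ∈ Finset.range n, ⟪T (x i), x (i + 1) - x i⟫ + ⟪T (x n), x 0 - x n⟫ ≤ 0) :
    ∃ a : EE d → ℝ, ∀ x ∈ L, ∀ x' ∈ L, a x + ⟪T x, x' - x⟫ ≤ a x' := by
  obtain ⟨ψ, -, -, h⟩ := exists_potential L T R.toNNReal
    (fun x hx => (hTR x hx).trans (Real.le_coe_toNNReal R)) (by
      intro x₀ hx₀ l hl
      rw [chainVal_eq_sum]
      have := hcyc l.length (fun i => (x₀ :: l).getD i 0) (by
        intro i hi
        have hi' : i < (x₀ :: l).length := by simp; omega
        rw [List.getD_eq_getElem _ _ hi']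
        have hm := List.getElem_mem hi'
        rcases List.mem_cons.1 hm with h | h
        · rw [h]; exact hx₀
        · exact hl _ h)
      simpa using this)
  exact ⟨ψ, fun x hx x' _ => h x hx x'⟩

theorem exists_dualPair_of_rockafellar {ρ : Measure (EE d)} {L Y : Set (EE d)} (hL : L.Nonempty)
    (hLρ : ∀ᵐ x ∂ρ, x ∈ L) {T : EE d → EE d} {r R : ℝ}
    (hLr : ∀ x ∈ L, ‖x‖ ≤ r) (hYR : ∀ y ∈ Y, ‖y‖ ≤ R) (hTY : ∀ x ∈ L, T x ∈ Y)
    {a : EE d → ℝ} (ha : ∀ x ∈ L, ∀ x' ∈ L, a x + ⟪T x, x' - x⟫ ≤ a x') :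
    ∃ φ ψ : EE d → ℝ, DualPair ρ Y T r R φ ψ := by
  obtain ⟨x₀, hx₀⟩ := hL
  have hL : L.Nonempty := ⟨x₀, hx₀⟩
  have hY : Y.Nonempty := ⟨T x₀, hTY x₀ hx₀⟩
  have hr : 0 ≤ r := (norm_nonneg _).trans (hLr x₀ hx₀)
  have hR : 0 ≤ R := (norm_nonneg _).trans (hYR _ (hTY x₀ hx₀))
  -- `a` is bounded below on `L`
  have ha_low : ∀ x ∈ L, a x₀ - R * (2 * r) ≤ a x := by
    intro x hx
    have h1 := ha x₀ hx₀ x hx
    have h2 : |⟪T x₀, x - x₀⟫| ≤ R * (2 * r) := by
      refine (abs_real_inner_le_norm _ _).trans ?_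
      have h3 : ‖x - x₀‖ ≤ 2 * r := by
        have := norm_sub_le x x₀
        have h4 := hLr x hx
        have h5 := hLr x₀ hx₀
        linarith
      exact mul_le_mul (hYR _ (hTY x₀ hx₀)) h3 (norm_nonneg _) hR
    rw [abs_le] at h2
    linarith [h2.1]
  set ψ : EE d → ℝ := supAff L a with hψ
  -- `ψ` is bounded below on `Y`
  have hψ_low : ∀ y ∈ Y, - (r * R) - a x₀ ≤ ψ y := by
    intro y hy
    have h1 : ⟪y, x₀⟫ - a x₀ ≤ ψ y := le_supAff hLr ha_low y hx₀
    have h2 : |⟪y, x₀⟫| ≤ r * R := by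
      refine (abs_real_inner_le_norm _ _).trans ?_
      rw [mul_comm]
      exact mul_le_mul (hLr x₀ hx₀) (hYR y hy) (norm_nonneg _) hr
    rw [abs_le] at h2
    linarith [h2.1]
  set φ : EE d → ℝ := supAff Y ψ with hφ
  refine ⟨φ, ψ, ?_, ?_, ?_, ?_, ?_⟩
  · intro z y hy
    have := le_supAff hYR hψ_low z hy
    linarith
  · filter_upwards [hLρ] with x hx
    have h1 : ψ (T x) = ⟪x, T x⟫ - a x := by
      apply le_antisymm
      · apply supAff_le hL
        intro x' hx'
        have := ha x hx x' hx'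
        rw [inner_sub_right] at this
        rw [real_inner_comm (T x) x]
        linarith
      · have := le_supAff hLr ha_low (T x) hx
        rw [real_inner_comm (T x) x]
        exact this
    have h2 : φ x = a x := by
      apply le_antisymm
      · apply supAff_le hY
        intro y hy
        have := le_supAff hLr ha_low y hx
        rw [real_inner_comm] at this
        change ⟪x, y⟫ - a x ≤ ψ y at this
        linarith
      · have := le_supAff hYR hψ_low x (hTY x hx)
        change ⟪x, T x⟫ - ψ (T x) ≤ φ x at this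
        rw [h1] at this
        linarith
    rw [h1, h2]
    ring
  · exact supAff_lip hY hYR hψ_low
  · exact supAff_lip hL hLr ha_low
  · exact supAff_conv hY hYR hψ_low

end Vale.Agent.P074
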