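import Vale.Agent.P074.SecondDiff
import Vale.Agent.P074.GapCoupling

open MeasureTheory
open scoped ENNReal NNReal RealInnerProductSpace

namespace Vale.Agent.P074

variable {d : ℕ}

lemma ae_mem_unif {K : Set (EE d)} (hK : MeasurableSet K) : ∀ᵐ x ∂(unif K), x ∈ K := by
  have := unif_compl hK
  rw [measure_eq_zero_iff_ae_notMem] at this
  filter_upwards [this] with x hx
  simpa using hx

lemma integral_unif {K : Set (EE d)} (f : EE d → ℝ) :
    ∫ x, f x ∂(unif K) = (volume K).toReal⁻¹ * ∫ x in K, f x := by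
  unfold unif
  rw [integral_smul_measure, ENNReal.toReal_inv, smul_eq_mul]

lemma norm_le_sum_abs_coord (w : EE d) :
    ‖w‖ ≤ ∑ i, |⟪w, EuclideanSpace.single i (1 : ℝ)⟫| := by
  have h := (EuclideanSpace.basisFun (Fin d) ℝ).sum_repr' w
  conv_lhs => rw [← h]
  refine (norm_sum_le _ _).trans (Finset.sum_le_sum fun i _ => ?_)
  rw [norm_smul, (EuclideanSpace.basisFun (Fin d) ℝ).orthonormal.1 i, mul_one, Real.norm_eq_abs,
    EuclideanSpace.basisFun_apply, real_inner_comm]

/-- The basic `L¹` inequality at scale `s`. -/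
theorem l1_scale_inequality {K Y : Set (EE d)} (hK : IsCompact K) (hKi : (interior K).Nonempty)
    {r R : ℝ} (hKr : ∀ x ∈ K, ‖x‖ ≤ r) (hYR : ∀ y ∈ Y, ‖y‖ ≤ R)
    {T S : EE d → EE d} (hT : Measurable T) (hS : Measurable S)
    (hTY : ∀ᵐ x ∂(unif K), T x ∈ Y) (hSY : ∀ᵐ x ∂(unif K), S x ∈ Y)
    {φ ψ φ' ψ' : EE d → ℝ} (h1 : DualPair (unif K) Y T r R φ ψ)
    (h2 : DualPair (unif K) Y S r R φ' ψ') {s : ℝ} (hs : 0 ≤ s) :
    s * ∫ x, ‖T x - S x‖ ∂(unif K) ≤
      d * (2 * R * (volume (Metric.closedBall (0 : EE d) (r + 1))).toReal / (volume K).toReal) * s ^ 2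
      + d * ∫ x, ((φ x + ψ (S x) - ⟪x, S x⟫) + (φ' x + ψ' (T x) - ⟪x, T x⟫)) ∂(unif K) := by
  have := unif_isProbabilityMeasure hK hKi
  have hKae := ae_mem_unif (d := d) hK.measurableSet
  obtain ⟨x₁, hx₁⟩ := hKi
  have hr0 : 0 ≤ r := (norm_nonneg _).trans (hKr x₁ (interior_subset hx₁))
  have hR0 : 0 ≤ R := by
    obtain ⟨x, hx⟩ := hTY.exists
    exact (norm_nonneg _).trans (hYR _ hx)
  have cont_of_lip : ∀ {c : ℝ} {f : EE d → ℝ}, (∀ x z, |f x - f z| ≤ c * ‖x - z‖) → Continuous f := by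
    intro c f hf
    have : LipschitzWith (Real.toNNReal c) f := by
      refine LipschitzWith.of_dist_le_mul fun x z => ?_
      rw [Real.dist_eq, dist_eq_norm]
      exact (hf x z).trans (mul_le_mul_of_nonneg_right (Real.le_coe_toNNReal c) (norm_nonneg _))
    exact this.continuous
  have bound_of_lip : ∀ {c : ℝ} {f : EE d → ℝ}, (∀ x z, |f x - f z| ≤ c * ‖x - z‖) →
      ∀ x, |f x| ≤ |f 0| + c * ‖x‖ := by
    intro c f hf x
    have h := hf x 0
    rw [sub_zero] at h
    have := abs_add_le (f 0) (f x - f 0)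
    simp only [add_sub_cancel] at this
    linarith
  -- integrability facts
  have int_left : ∀ {f : EE d → ℝ}, (∀ x z, |f x - f z| ≤ R * ‖x - z‖) → Integrable f (unif K) := by
    intro f hf
    refine Integrable.of_bound (C := |f 0| + R * r) (cont_of_lip hf).aestronglyMeasurable ?_
    filter_upwards [hKae] with x hx
    rw [Real.norm_eq_abs]
    exact (bound_of_lip hf x).trans (by gcongr; exact hKr x hx)
  have int_right : ∀ {f : EE d → ℝ} {U : EE d → EE d}, (∀ x z, |f x - f z| ≤ r * ‖x - z‖) →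
      Measurable U → (∀ᵐ x ∂(unif K), U x ∈ Y) → Integrable (fun x => f (U x)) (unif K) := by
    intro f U hf hU hUY
    refine Integrable.of_bound (C := |f 0| + r * R)
      ((cont_of_lip hf).measurable.comp hU).aestronglyMeasurable ?_
    filter_upwards [hUY] with x hx
    rw [Real.norm_eq_abs]
    exact (bound_of_lip hf (U x)).trans (by gcongr; exact hYR _ hx)
  have int_inner : ∀ {U : EE d → EE d}, Measurable U → (∀ᵐ x ∂(unif K), U x ∈ Y) →
      Integrable (fun x => ⟪x, U x⟫) (unif K) := by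
    intro U hU hUY
    refine Integrable.of_bound (C := r * R) (measurable_id.inner hU).aestronglyMeasurable ?_
    filter_upwards [hUY, hKae] with x hx hxK
    exact (norm_inner_le_norm _ _).trans (mul_le_mul (hKr x hxK) (hYR _ hx) (norm_nonneg _) hr0)
  have int_g : Integrable (fun x => (φ x + ψ (S x) - ⟪x, S x⟫) + (φ' x + ψ' (T x) - ⟪x, T x⟫))
      (unif K) :=
    (((int_left h1.lipφ).add (int_right h1.lipψ hS hSY)).sub (int_inner hS hSY)).add
      (((int_left h2.lipφ).add (int_right h2.lipψ hT hTY)).sub (int_inner hT hTY))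
  have hφc : Continuous φ := cont_of_lip h1.lipφ
  have int_D : ∀ v : EE d, Integrable (fun x => φ (x + v) + φ (x - v) - 2 * φ x) (unif K) := by
    intro v
    have hc : Continuous (fun x => φ (x + v) + φ (x - v) - 2 * φ x) := by fun_prop
    refine Integrable.of_bound (C := 2 * (R * ‖v‖)) hc.aestronglyMeasurable ?_
    refine Filter.Eventually.of_forall fun x => ?_
    have a1 := h1.lipφ (x + v) x
    have a2 := h1.lipφ (x - v) x
    simp only [add_sub_cancel_left, sub_sub_cancel_left, norm_neg] at a1 a2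
    rw [Real.norm_eq_abs]
    have : φ (x + v) + φ (x - v) - 2 * φ x = (φ (x + v) - φ x) + (φ (x - v) - φ x) := by ring
    rw [this]
    exact (abs_add_le _ _).trans (by linarith)
  have int_n : Integrable (fun x => ‖T x - S x‖) (unif K) := by
    refine Integrable.of_bound (C := R + R) (hT.sub hS).norm.aestronglyMeasurable ?_
    filter_upwards [hTY, hSY] with x hx hx'
    rw [norm_norm]
    exact (norm_sub_le _ _).trans (add_le_add (hYR _ hx) (hYR _ hx'))
  -- pointwise inequality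
  have hpt : ∀ᵐ x ∂(unif K), s * ‖T x - S x‖ ≤
      (∑ i : Fin d, (φ (x + s • EuclideanSpace.single i (1 : ℝ))
        + φ (x - s • EuclideanSpace.single i (1 : ℝ)) - 2 * φ x))
      + d * ((φ x + ψ (S x) - ⟪x, S x⟫) + (φ' x + ψ' (T x) - ⟪x, T x⟫)) := by
    filter_upwards [hTY, hSY, h1.eq] with x hx hx' heq
    have hg' : 0 ≤ φ' x + ψ' (T x) - ⟪x, T x⟫ := by linarith [h2.ineq x (T x) hx]
    have hi : ∀ i : Fin d, s * |⟪T x - S x, EuclideanSpace.single i (1 : ℝ)⟫| ≤
        (φ (x + s • EuclideanSpace.single i (1 : ℝ))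
          + φ (x - s • EuclideanSpace.single i (1 : ℝ)) - 2 * φ x)
        + (φ x + ψ (S x) - ⟪x, S x⟫) := by
      intro i
      have := pointwise_gap h1.ineq hx hx' heq (s • EuclideanSpace.single i (1 : ℝ))
      rwa [inner_smul_right, abs_mul, abs_of_nonneg hs] at this
    calc s * ‖T x - S x‖ ≤ s * ∑ i, |⟪T x - S x, EuclideanSpace.single i (1 : ℝ)⟫| :=
          mul_le_mul_of_nonneg_left (norm_le_sum_abs_coord _) hs
      _ = ∑ i, s * |⟪T x - S x, EuclideanSpace.single i (1 : ℝ)⟫| := Finset.mul_sum _ _ _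
      _ ≤ ∑ i : Fin d, ((φ (x + s • EuclideanSpace.single i (1 : ℝ))
          + φ (x - s • EuclideanSpace.single i (1 : ℝ)) - 2 * φ x)
          + (φ x + ψ (S x) - ⟪x, S x⟫)) := Finset.sum_le_sum fun i _ => hi i
      _ = (∑ i : Fin d, (φ (x + s • EuclideanSpace.single i (1 : ℝ))
          + φ (x - s • EuclideanSpace.single i (1 : ℝ)) - 2 * φ x))
          + d * (φ x + ψ (S x) - ⟪x, S x⟫) := by
          rw [Finset.sum_add_distrib]
          simp
          ring
      _ ≤ _ := by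
          have : (0 : ℝ) ≤ d := Nat.cast_nonneg d
          nlinarith
  have hm : 0 < (volume K).toReal := by
    have h0 : 0 < volume K :=
      (isOpen_interior.measure_pos volume ⟨x₁, hx₁⟩).trans_le (measure_mono interior_subset)
    exact ENNReal.toReal_pos h0.ne' hK.measure_lt_top.ne
  have hDint : ∀ i : Fin d, ∫ x, (φ (x + s • EuclideanSpace.single i (1 : ℝ))
        + φ (x - s • EuclideanSpace.single i (1 : ℝ)) - 2 * φ x) ∂(unif K)
      ≤ (2 * R * (volume (Metric.closedBall (0 : EE d) (r + 1))).toReal / (volume K).toReal) * s ^ 2 := by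
    intro i
    rw [integral_unif]
    have := integral_second_difference_le hK hKr h1.lipφ h1.conv (s • EuclideanSpace.single i (1 : ℝ))
    rw [norm_smul, EuclideanSpace.norm_single, norm_one, mul_one, Real.norm_eq_abs, sq_abs] at this
    calc (volume K).toReal⁻¹ * _ ≤ (volume K).toReal⁻¹ *
          (2 * R * s ^ 2 * (volume (Metric.closedBall (0 : EE d) (r + 1))).toReal) :=
          mul_le_mul_of_nonneg_left this (inv_nonneg.2 hm.le)
      _ = _ := by field_simp
  calc s * ∫ x, ‖T x - S x‖ ∂(unif K) = ∫ x, s * ‖T x - S x‖ ∂(unif K) :=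
        (integral_const_mul _ _).symm
    _ ≤ ∫ x, ((∑ i : Fin d, (φ (x + s • EuclideanSpace.single i (1 : ℝ))
        + φ (x - s • EuclideanSpace.single i (1 : ℝ)) - 2 * φ x))
        + d * ((φ x + ψ (S x) - ⟪x, S x⟫) + (φ' x + ψ' (T x) - ⟪x, T x⟫))) ∂(unif K) :=
        integral_mono_ae (int_n.const_mul s)
          ((integrable_finsetSum _ fun i _ => int_D _).add (int_g.const_mul _)) hpt
    _ = (∑ i : Fin d, ∫ x, (φ (x + s • EuclideanSpace.single i (1 : ℝ))
        + φ (x - s • EuclideanSpace.single i (1 : ℝ)) - 2 * φ x) ∂(unif K))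
        + d * ∫ x, ((φ x + ψ (S x) - ⟪x, S x⟫) + (φ' x + ψ' (T x) - ⟪x, T x⟫)) ∂(unif K) := by
        rw [integral_add (integrable_finsetSum _ fun i _ => int_D _) (int_g.const_mul _),
          integral_finsetSum _ fun i _ => int_D _, integral_const_mul]
    _ ≤ _ := by
        gcongr
        calc _ ≤ ∑ _i : Fin d, (2 * R * (volume (Metric.closedBall (0 : EE d) (r + 1))).toReal
              / (volume K).toReal) * s ^ 2 := Finset.sum_le_sum fun i _ => hDint i
          _ = _ := by simp; ring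


/-- real-number core of the optimisation in the scale `s` -/
lemma l1_le_of_scale {L A G c r' : ℝ} (_hL : 0 ≤ L) (hA : 0 ≤ A) (hc : 0 ≤ c)
    (hG : G ≤ r' * c) (h : ∀ s : ℝ, 0 ≤ s → s * L ≤ A * s ^ 2 + G) :
    L ≤ (A + r') * Real.sqrt c := by
  rcases hc.eq_or_lt with rfl | hc'
  · simp only [Real.sqrt_zero, mul_zero]
    rw [mul_zero] at hG
    by_contra hcon
    rw [not_le] at hcon
    have h1 := h (L / (2 * (A + 1))) (by positivity)
    have hA1 : 0 < 2 * (A + 1) := by positivity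
    have h2 : L / (2 * (A + 1)) * L = L ^ 2 / (2 * (A + 1)) := by ring
    have h3 : A * (L / (2 * (A + 1))) ^ 2 = L ^ 2 / (2 * (A + 1)) * (A / (2 * (A + 1))) := by
      field_simp
    have h4 : A / (2 * (A + 1)) ≤ 1 / 2 := by
      rw [div_le_div_iff₀ hA1 (by norm_num)]
      linarith
    have h5 : 0 < L ^ 2 / (2 * (A + 1)) := by positivity
    rw [h2, h3] at h1
    nlinarith
  · have hs : 0 < Real.sqrt c := Real.sqrt_pos.2 hc'
    have h1 := h (Real.sqrt c) hs.le
    rw [Real.sq_sqrt hc] at h1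
    have h2 : Real.sqrt c * L ≤ (A + r') * (Real.sqrt c * Real.sqrt c) := by
      rw [Real.mul_self_sqrt hc]
      linarith
    have h3 : Real.sqrt c * L ≤ Real.sqrt c * ((A + r') * Real.sqrt c) := by
      calc _ ≤ _ := h2
        _ = _ := by ring
    exact le_of_mul_le_mul_left h3 hs

/-- A4: assembly. -/
theorem stability_of_dualPairs {K Y : Set (EE d)} (hK : IsCompact K) (hKi : (interior K).Nonempty)
    (hY : IsCompact Y) {r R : ℝ} (hKr : ∀ x ∈ K, ‖x‖ ≤ r) (hYR : ∀ y ∈ Y, ‖y‖ ≤ R) :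
    ∃ C : ℝ≥0, ∀ (T S : EE d → EE d) (φ ψ φ' ψ' : EE d → ℝ), Measurable T → Measurable S →
      (∀ᵐ x ∂(unif K), T x ∈ Y) → (∀ᵐ x ∂(unif K), S x ∈ Y) →
      DualPair (unif K) Y T r R φ ψ → DualPair (unif K) Y S r R φ' ψ' →
      eLpNorm (fun x => T x - S x) 2 (unif K)
        ≤ (C : ℝ≥0∞) * W2 ((unif K).map T) ((unif K).map S) ^ (1 / 4 : ℝ) := by
  have hprob := unif_isProbabilityMeasure hK hKi
  set A : ℝ := d * (2 * R * (volume (Metric.closedBall (0 : EE d) (r + 1))).toReal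
    / (volume K).toReal) with hA
  set C₁ : ℝ := A + d * (2 * r) with hC₁
  refine ⟨Real.toNNReal (Real.sqrt (2 * R * C₁)) + 1, ?_⟩
  intro T S φ ψ φ' ψ' hT hS hTY hSY h1 h2
  obtain ⟨x₁, hx₁⟩ := hKi
  have hr0 : 0 ≤ r := (norm_nonneg _).trans (hKr x₁ (interior_subset hx₁))
  have hR0 : 0 ≤ R := by
    obtain ⟨x, hx⟩ := hTY.exists
    exact (norm_nonneg _).trans (hYR _ hx)
  have hA0 : 0 ≤ A := by positivity
  set w := W2 ((unif K).map T) ((unif K).map S) with hw
  by_cases hwtop : w = ∞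
  · rw [hwtop, ENNReal.top_rpow_of_pos (by norm_num), ENNReal.mul_top (by simp)]
    exact le_top
  set c : ℝ := w.toReal with hc
  have hc0 : 0 ≤ c := ENNReal.toReal_nonneg
  set G : ℝ := ∫ x, ((φ x + ψ (S x) - ⟪x, S x⟫) + (φ' x + ψ' (T x) - ⟪x, T x⟫)) ∂(unif K) with hG
  have hGw : ENNReal.ofReal G ≤ ENNReal.ofReal (2 * r) * w := by
    have key : ∀ π : Measure (EE d × EE d), IsCoupling ((unif K).map T) ((unif K).map S) π →
        ENNReal.ofReal G ≤ ENNReal.ofReal (2 * r) *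
          (∫⁻ p, ENNReal.ofReal (‖p.1 - p.2‖ ^ 2) ∂π) ^ (1 / 2 : ℝ) := fun π hπ =>
      gap_le_coupling hK ⟨x₁, hx₁⟩ hKr hYR hY.measurableSet hT hS hTY hSY h1 h2 hπ
    by_cases ha : ENNReal.ofReal (2 * r) = 0
    · have hex : ∃ π : Measure (EE d × EE d), IsCoupling ((unif K).map T) ((unif K).map S) π := by
        by_contra hno
        rw [not_exists] at hno
        apply hwtop
        rw [hw, W2]
        simp [hno]
      obtain ⟨π, hπ⟩ := hex
      have := key π hπ
      rw [ha, zero_mul] at this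
      rw [ha, zero_mul]
      exact this
    · rw [mul_comm, ← ENNReal.div_le_iff ha ENNReal.ofReal_ne_top, hw, W2]
      refine le_iInf₂ fun π hπ => ?_
      rw [ENNReal.div_le_iff ha ENNReal.ofReal_ne_top, mul_comm]
      exact key π hπ
  have hGc : G ≤ 2 * r * c := by
    have h3 : ENNReal.ofReal (2 * r) * w = ENNReal.ofReal (2 * r * c) := by
      rw [ENNReal.ofReal_mul (p := 2 * r) (by positivity), hc, ENNReal.ofReal_toReal hwtop]
    rw [h3] at hGw
    exact (ENNReal.ofReal_le_ofReal_iff (by positivity)).1 hGw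
  set L : ℝ := ∫ x, ‖T x - S x‖ ∂(unif K) with hL
  have hL0 : 0 ≤ L := integral_nonneg fun x => norm_nonneg _
  have hLle : L ≤ C₁ * Real.sqrt c := by
    refine l1_le_of_scale (G := d * G) hL0 hA0 hc0 ?_ ?_
    · have : (0 : ℝ) ≤ d := Nat.cast_nonneg d
      calc (d : ℝ) * G ≤ d * (2 * r * c) := mul_le_mul_of_nonneg_left hGc this
        _ = d * (2 * r) * c := by ring
    · intro s hs
      exact l1_scale_inequality hK ⟨x₁, hx₁⟩ hKr hYR hT hS hTY hSY h1 h2 hs
  have hbd : ∀ᵐ x ∂(unif K), ‖T x - S x‖ ≤ 2 * R := by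
    filter_upwards [hTY, hSY] with x hx hx'
    have := (norm_sub_le (T x) (S x)).trans (add_le_add (hYR _ hx) (hYR _ hx'))
    linarith
  have hmem : MemLp (fun x => T x - S x) 2 (unif K) :=
    MemLp.of_bound (hT.sub hS).aestronglyMeasurable (2 * R) hbd
  have int_n : Integrable (fun x => ‖T x - S x‖) (unif K) := by
    refine Integrable.of_bound (C := 2 * R) (hT.sub hS).norm.aestronglyMeasurable ?_
    filter_upwards [hbd] with x hx
    rwa [norm_norm]
  have hsq : ∫ x, ‖T x - S x‖ ^ (2 : ℝ) ∂(unif K) ≤ 2 * R * L := by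
    rw [hL, ← integral_const_mul]
    refine integral_mono_of_nonneg (Filter.Eventually.of_forall fun x => by positivity)
      (int_n.const_mul _) ?_
    filter_upwards [hbd] with x hx
    rw [Real.rpow_two, sq]
    exact mul_le_mul_of_nonneg_right hx (norm_nonneg _)
  have hC₁0 : 0 ≤ C₁ := by positivity
  rw [hmem.eLpNorm_eq_integral_rpow_norm (by norm_num) (by norm_num)]
  simp only [ENNReal.toReal_ofNat]
  have hfinal : (∫ x, ‖T x - S x‖ ^ (2 : ℝ) ∂(unif K)) ^ ((2 : ℝ)⁻¹)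
      ≤ Real.sqrt (2 * R * C₁) * c ^ (1 / 4 : ℝ) := by
    have h5 : ∫ x, ‖T x - S x‖ ^ (2 : ℝ) ∂(unif K) ≤ (2 * R * C₁) * Real.sqrt c := by
      calc _ ≤ 2 * R * L := hsq
        _ ≤ 2 * R * (C₁ * Real.sqrt c) := mul_le_mul_of_nonneg_left hLle (by positivity)
        _ = _ := by ring
    have h6 : 0 ≤ ∫ x, ‖T x - S x‖ ^ (2 : ℝ) ∂(unif K) :=
      integral_nonneg fun x => by positivity
    calc _ ≤ ((2 * R * C₁) * Real.sqrt c) ^ ((2 : ℝ)⁻¹) :=
          Real.rpow_le_rpow h6 h5 (by norm_num)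
      _ = _ := by
          rw [Real.mul_rpow (by positivity) (Real.sqrt_nonneg _), Real.sqrt_eq_rpow,
            Real.sqrt_eq_rpow, ← Real.rpow_mul hc0]
          norm_num
  have hwc : w ^ (1 / 4 : ℝ) = ENNReal.ofReal (c ^ (1 / 4 : ℝ)) := by
    rw [← ENNReal.ofReal_rpow_of_nonneg hc0 (by norm_num), hc, ENNReal.ofReal_toReal hwtop]
  rw [hwc]
  calc ENNReal.ofReal ((∫ x, ‖T x - S x‖ ^ (2 : ℝ) ∂(unif K)) ^ ((2 : ℝ)⁻¹))
      ≤ ENNReal.ofReal (Real.sqrt (2 * R * C₁) * c ^ (1 / 4 : ℝ)) := ENNReal.ofReal_le_ofReal hfinal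
    _ = ENNReal.ofReal (Real.sqrt (2 * R * C₁)) * ENNReal.ofReal (c ^ (1 / 4 : ℝ)) :=
        ENNReal.ofReal_mul (Real.sqrt_nonneg _)
    _ ≤ _ := by
        gcongr
        rw [ENNReal.coe_add, ENNReal.ofReal]
        exact le_self_add

end Vale.Agent.P074
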