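import Vale.Agent.P074.Assembly
import Vale.Agent.P074.CycMono
import Vale.Agent.P074.Rockafellar
import Vale.Agent.P074.Stability

open MeasureTheory
open scoped ENNReal NNReal RealInnerProductSpace

namespace Vale.Agent.P074

/-- The exponent `1/4` is admissible in every dimension `d ≥ 1`. -/
theorem admissible_quarter {d : ℕ} (hd : 0 < d) : Admissible d (1 / 4) :=
  admissible_quarter_of
    (fun hK hKc hKi _ hY _ _ hμY _ hT => exists_cyclically_monotone hd hK hKc hKi hY hμY hT)
    (fun hL _ _ hTR hcyc => exists_rockafellar hL hTR hcyc)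
    (fun hL hLρ _ _ _ hLr hYR hTY _ ha => exists_dualPair_of_rockafellar hL hLρ hLr hYR hTY ha)
    (fun hK hKi hY _ _ hKr hYR => stability_of_dualPairs hK hKi hY hKr hYR)

end Vale.Agent.P074
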