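import Vale.Agent.P074.Dual

open MeasureTheory
open scoped ENNReal NNReal RealInnerProductSpace

namespace Vale.Agent.P074

variable {d : ℕ}

/-- A1: the integral of a second difference of a Lipschitz midpoint-convex function is
quadratically small. -/
theorem integral_second_difference_le {K : Set (EE d)} (hK : IsCompact K) {r R : ℝ}
    (hKr : ∀ x ∈ K, ‖x‖ ≤ r) {φ : EE d → ℝ} (hlip : ∀ x z, |φ x - φ z| ≤ R * ‖x - z‖)
    (hconv : ∀ x v, 2 * φ x ≤ φ (x + v) + φ (x - v)) (v : EE d) :
    ∫ x in K, (φ (x + v) + φ (x - v) - 2 * φ x)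
      ≤ 2 * R * ‖v‖ ^ 2 * (volume (Metric.closedBall (0 : EE d) (r + 1))).toReal := by
  have hRv : 0 ≤ R * ‖v‖ := by
    have := hlip v 0
    rw [sub_zero] at this
    exact (abs_nonneg _).trans this
  rcases K.eq_empty_or_nonempty with rfl | hne
  · simp only [Measure.restrict_empty, integral_zero_measure]
    have : 2 * R * ‖v‖ ^ 2 = 2 * (R * ‖v‖) * ‖v‖ := by ring
    rw [this]
    positivity
  set B : Set (EE d) := Metric.closedBall (0 : EE d) (r + 1) with hB
  set w : EE d → ℝ := fun x => max 0 (1 - Metric.infDist x K) with hw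
  have hφc : Continuous φ := by
    have : LipschitzWith (Real.toNNReal R) φ := by
      refine LipschitzWith.of_dist_le_mul fun x z => ?_
      rw [Real.dist_eq, dist_eq_norm]
      refine (hlip x z).trans ?_
      exact mul_le_mul_of_nonneg_right (Real.le_coe_toNNReal R) (norm_nonneg _)
    exact this.continuous
  have hwc : Continuous w := continuous_const.max (continuous_const.sub (Metric.continuous_infDist_pt K))
  have hw0 : ∀ x, 0 ≤ w x := fun x => le_max_left _ _
  have hwK : ∀ x ∈ K, w x = 1 := by
    intro x hx
    simp [hw, Metric.infDist_zero_of_mem hx]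
  have hwB : ∀ x, x ∉ B → w x = 0 := by
    intro x hx
    have hx' : r + 1 < ‖x‖ := by simpa [hB] using hx
    have : 1 ≤ Metric.infDist x K := by
      refine (Metric.le_infDist hne).2 fun k hk => ?_
      have h1 := hKr k hk
      have h2 : ‖x‖ ≤ ‖x - k‖ + ‖k‖ := by
        have := norm_add_le (x - k) k
        simpa using this
      rw [dist_eq_norm]
      linarith
    simp only [hw]
    exact max_eq_left (by linarith)
  have hwlip : ∀ x y, |w x - w y| ≤ ‖x - y‖ := by
    intro x y
    have h1 : |w x - w y| ≤ |(1 - Metric.infDist x K) - (1 - Metric.infDist y K)| := by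
      simp only [hw]
      have := abs_max_sub_max_le_abs (1 - Metric.infDist x K) (1 - Metric.infDist y K) (0 : ℝ)
      rwa [max_comm _ (0 : ℝ), max_comm _ (0 : ℝ)] at this
    have h2 : |Metric.infDist x K - Metric.infDist y K| ≤ dist x y := by
      have := (Metric.lipschitz_infDist_pt K).dist_le_mul x y
      simpa [Real.dist_eq] using this
    rw [dist_eq_norm] at h2
    have h3 : (1 - Metric.infDist x K) - (1 - Metric.infDist y K)
        = -(Metric.infDist x K - Metric.infDist y K) := by ring
    rw [h3, abs_neg] at h1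
    exact h1.trans h2
  have hwcs : HasCompactSupport w :=
    HasCompactSupport.intro (isCompact_closedBall (0 : EE d) (r + 1)) hwB
  set f : EE d → ℝ := fun x => φ (x + v) - φ x with hf
  have hfc : Continuous f := (hφc.comp (continuous_id.add continuous_const)).sub hφc
  have hfb : ∀ x, |f x| ≤ R * ‖v‖ := by
    intro x
    have := hlip (x + v) x
    simpa [hf] using this
  have hD : ∀ x, φ (x + v) + φ (x - v) - 2 * φ x = f x - f (x - v) := by
    intro x
    simp only [hf, sub_add_cancel]
    ring
  have hD0 : ∀ x, 0 ≤ f x - f (x - v) := by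
    intro x
    rw [← hD]
    linarith [hconv x v]
  have hfvc : Continuous fun x => f (x - v) := hfc.comp (continuous_id.sub continuous_const)
  have i1 : Integrable (fun x => w x * f x) :=
    (hwc.mul hfc).integrable_of_hasCompactSupport hwcs.mul_right
  have i2 : Integrable (fun x => w x * f (x - v)) :=
    (hwc.mul hfvc).integrable_of_hasCompactSupport hwcs.mul_right
  have i3 : Integrable (fun x => w (x + v) * f x) := by
    have := i2.comp_add_right v
    simpa using this
  have step1 : ∫ x in K, (f x - f (x - v)) ≤ ∫ x, w x * (f x - f (x - v)) := by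
    rw [← integral_indicator hK.measurableSet]
    refine integral_mono ?_ ?_ ?_
    · rw [integrable_indicator_iff hK.measurableSet]
      exact (hfc.sub hfvc).continuousOn.integrableOn_compact hK
    · have := i1.sub i2
      refine this.congr (Filter.Eventually.of_forall fun x => ?_)
      simp [mul_sub]
    · intro x
      by_cases hx : x ∈ K
      · simp [Set.indicator_of_mem hx, hwK x hx]
      · simp only [Set.indicator_of_notMem hx]
        exact mul_nonneg (hw0 x) (hD0 x)
  have step2 : ∫ x, w x * (f x - f (x - v)) = ∫ x, (w x - w (x + v)) * f x := by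
    have e1 : ∫ x, w x * f (x - v) = ∫ x, w (x + v) * f x := by
      have := integral_add_right_eq_self (μ := (volume : Measure (EE d)))
        (fun x => w x * f (x - v)) v
      simpa using this.symm
    simp_rw [mul_sub, sub_mul]
    rw [integral_sub i1 i2, integral_sub i1 i3, e1]
  set U : Set (EE d) := B ∪ (fun x => x + v) ⁻¹' B with hU
  have hUfin : volume U < ∞ := by
    refine (measure_union_le _ _).trans_lt ?_
    rw [measure_preimage_add_right]
    exact ENNReal.add_lt_top.2 ⟨measure_closedBall_lt_top, measure_closedBall_lt_top⟩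
  have hUreal : (volume : Measure (EE d)).real U ≤ 2 * (volume B).toReal := by
    have h1 : volume U ≤ volume B + volume B := by
      refine (measure_union_le _ _).trans ?_
      rw [measure_preimage_add_right]
    have h2 : volume B ≠ ∞ := measure_closedBall_lt_top.ne
    rw [measureReal_def]
    calc (volume U).toReal ≤ (volume B + volume B).toReal :=
          ENNReal.toReal_mono (ENNReal.add_ne_top.2 ⟨h2, h2⟩) h1
      _ = 2 * (volume B).toReal := by rw [ENNReal.toReal_add h2 h2]; ring
  have step3 : ∫ x, (w x - w (x + v)) * f x ≤ (‖v‖ * (R * ‖v‖)) * (volume : Measure (EE d)).real U := by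
    have hz : ∀ x, x ∉ U → (w x - w (x + v)) * f x = 0 := by
      intro x hx
      have h1 : x ∉ B := fun h => hx (Or.inl h)
      have h2 : x + v ∉ B := fun h => hx (Or.inr h)
      rw [hwB x h1, hwB _ h2]
      simp
    rw [← setIntegral_eq_integral_of_forall_compl_eq_zero hz]
    refine (le_abs_self _).trans ?_
    rw [← Real.norm_eq_abs]
    refine norm_setIntegral_le_of_norm_le_const hUfin fun x _ => ?_
    rw [norm_mul, Real.norm_eq_abs, Real.norm_eq_abs]
    have h1 : |w x - w (x + v)| ≤ ‖v‖ := by
      have := hwlip x (x + v)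
      simpa using this
    exact mul_le_mul h1 (hfb x) (abs_nonneg _) (norm_nonneg _)
  simp_rw [hD]
  calc ∫ x in K, (f x - f (x - v)) ≤ (‖v‖ * (R * ‖v‖)) * (volume : Measure (EE d)).real U :=
        step1.trans (step2.le.trans step3)
    _ ≤ (‖v‖ * (R * ‖v‖)) * (2 * (volume B).toReal) :=
        mul_le_mul_of_nonneg_left hUreal (by positivity)
    _ = 2 * R * ‖v‖ ^ 2 * (volume B).toReal := by ring

/-- A2: pointwise inequality. -/
theorem pointwise_gap {Y : Set (EE d)} {φ ψ : EE d → ℝ}
    (hineq : ∀ z, ∀ y ∈ Y, ⟪z, y⟫ ≤ φ z + ψ y) {x y y' : EE d} (hy : y ∈ Y) (hy' : y' ∈ Y)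
    (heq : ⟪x, y⟫ = φ x + ψ y) (v : EE d) :
    |⟪y - y', v⟫| ≤ (φ (x + v) + φ (x - v) - 2 * φ x) + (φ x + ψ y' - ⟪x, y'⟫) := by
  have a1 := hineq (x + v) y hy
  have a2 := hineq (x - v) y hy
  have a3 := hineq (x + v) y' hy'
  have a4 := hineq (x - v) y' hy'
  rw [inner_add_left] at a1 a3
  rw [inner_sub_left] at a2 a4
  rw [inner_sub_left, real_inner_comm v y, real_inner_comm v y', abs_le]
  constructor <;> linarith

end Vale.Agent.P074
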